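import Vale.Agent.P063.Fourier

/-!
# P063: 4-norm hypercontractivity for low degree polynomials on the `p`-biased cube
-/

namespace P063

open Finset

variable {ι : Type*} [Fintype ι] [DecidableEq ι]

/-- expectation of a function of one coordinate -/
lemma ex_coord (p : ℝ) (e : ι) (u : Bool → ℝ) :
    ex p (fun x : ι → Bool => u (x e)) = p * u true + (1 - p) * u false := by
  have h := ex_prod p (fun (e' : ι) b => if e' = e then u b else 1)
  have h1 : (fun x : ι → Bool => ∏ e', (if e' = e then u (x e') else 1)) =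
      fun x => u (x e) := by
    ext x
    rw [prod_ite_eq' univ e (fun e' => u (x e')), if_pos (mem_univ e)]
  rw [h1] at h
  rw [h]
  rw [prod_eq_single e]
  · simp
  · intro b _ hb
    simp [hb]
  · intro h; exact absurd (mem_univ e) h

/-- third moment of a normalised bit -/
noncomputable def kap3 (p : ℝ) : ℝ := p * phi p true ^ 3 + (1 - p) * phi p false ^ 3

/-- fourth moment of a normalised bit -/
noncomputable def kap4 (p : ℝ) : ℝ := p * phi p true ^ 4 + (1 - p) * phi p false ^ 4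

lemma kap3_sq {p : ℝ} (hp0 : 0 < p) (hp1 : p < 1) : kap3 p ^ 2 ≤ 1 / (p * (1 - p)) := by
  have hq : 0 < p * (1 - p) := mul_pos hp0 (by linarith)
  have hs : Real.sqrt (p * (1 - p)) ^ 2 = p * (1 - p) := Real.sq_sqrt hq.le
  have hs6 : Real.sqrt (p * (1 - p)) ^ 6 = (p * (1 - p)) ^ 3 := by
    rw [show 6 = 2 * 3 from rfl, pow_mul, hs]
  have e1 : kap3 p ^ 2 = (p * (1 - p) ^ 3 - (1 - p) * p ^ 3) ^ 2 / (p * (1 - p)) ^ 3 := by
    rw [← hs6]
    have hs0 : Real.sqrt (p * (1 - p)) ≠ 0 := (Real.sqrt_pos.2 hq).ne'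
    unfold kap3 phi
    simp only [if_true, Bool.false_eq_true, if_false]
    field_simp
    ring
  rw [e1, div_le_div_iff₀ (pow_pos hq 3) hq]
  have e2 : (p * (1 - p) ^ 3 - (1 - p) * p ^ 3) = (p * (1 - p)) * (1 - 2 * p) := by ring
  rw [e2, mul_pow]
  have h3 : (1 - 2 * p) ^ 2 ≤ 1 := by nlinarith
  have h4 : 0 < (p * (1 - p)) ^ 3 := pow_pos hq 3
  nlinarith

lemma kap4_le {p : ℝ} (hp0 : 0 < p) (hp1 : p < 1) : kap4 p ≤ 1 / (p * (1 - p)) := by
  have hq : 0 < p * (1 - p) := mul_pos hp0 (by linarith)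
  have hs : Real.sqrt (p * (1 - p)) ^ 2 = p * (1 - p) := Real.sq_sqrt hq.le
  have hs4 : Real.sqrt (p * (1 - p)) ^ 4 = (p * (1 - p)) ^ 2 := by
    rw [show 4 = 2 * 2 from rfl, pow_mul, hs]
  have e1 : kap4 p = (p * (1 - p) ^ 4 + (1 - p) * p ^ 4) / (p * (1 - p)) ^ 2 := by
    rw [← hs4]
    have hs0 : Real.sqrt (p * (1 - p)) ≠ 0 := (Real.sqrt_pos.2 hq).ne'
    unfold kap4 phi
    simp only [if_true, Bool.false_eq_true, if_false]
    field_simp
  rw [e1, div_le_div_iff₀ (pow_pos hq 2) hq]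
  have e2 : (p * (1 - p) ^ 4 + (1 - p) * p ^ 4) = (p * (1 - p)) * (1 - 3 * (p * (1 - p))) := by
    ring
  rw [e2]
  have h4 : 0 < (p * (1 - p)) ^ 2 := pow_pos hq 2
  nlinarith [mul_pos h4 hq]

/-- `B = 4 / (p (1 - p)) ≥ 16` -/
lemma B_ge {p : ℝ} (hp0 : 0 < p) (hp1 : p < 1) : 16 ≤ 4 / (p * (1 - p)) := by
  have hq : 0 < p * (1 - p) := mul_pos hp0 (by linarith)
  rw [le_div_iff₀ hq]
  nlinarith [sq_nonneg (1 - 2 * p)]

/-- Cauchy-Schwarz for `ex` -/
lemma ex_cs {p : ℝ} (hp0 : 0 < p) (hp1 : p < 1) (f g : (ι → Bool) → ℝ) :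
    ex p (fun x => f x ^ 2 * g x ^ 2) ^ 2 ≤ ex p (fun x => f x ^ 4) * ex p (fun x => g x ^ 4) := by
  unfold ex
  refine Finset.sum_sq_le_sum_mul_sum_of_sq_le_mul univ ?_ ?_ ?_
  · intro x _; exact mul_nonneg (wt_nonneg hp0.le hp1.le x) (by positivity)
  · intro x _; exact mul_nonneg (wt_nonneg hp0.le hp1.le x) (by positivity)
  · intro x _; exact le_of_eq (by ring)

/-- the two-function inequality -/
lemma two_fun {p : ℝ} (hp0 : 0 < p) (hp1 : p < 1) (e : ι) (g h : (ι → Bool) → ℝ)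
    (hg : ∀ x y, g (({e} : Finset ι).piecewise y x) = g x)
    (hh : ∀ x y, h (({e} : Finset ι).piecewise y x) = h x) :
    ex p (fun x => (g x + phi p (x e) * h x) ^ 4) ≤
      ex p (fun x => g x ^ 4) + 8 * ex p (fun x => g x ^ 2 * h x ^ 2) +
        4 / (p * (1 - p)) * ex p (fun x => h x ^ 4) := by
  have hq : 0 < p * (1 - p) := mul_pos hp0 (by linarith)
  -- independence
  have ind : ∀ (k a b : ℕ), ex p (fun x => (g x ^ a * h x ^ b) * phi p (x e) ^ k) =
      ex p (fun x => g x ^ a * h x ^ b) * (p * phi p true ^ k + (1 - p) * phi p false ^ k) := by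
    intro k a b
    rw [← ex_coord p e (fun b => phi p b ^ k)]
    refine ex_indep p {e} (fun x => g x ^ a * h x ^ b) (fun x => phi p (x e) ^ k) ?_ ?_
    · intro x y; simp only [hg, hh]
    · intro x y
      simp [Finset.piecewise]
  have i1 := ind 1 3 1
  have i2 := ind 2 2 2
  have i3 := ind 3 1 3
  have i4 := ind 4 0 4
  have m1 : p * phi p true ^ 1 + (1 - p) * phi p false ^ 1 = 0 := by
    have := phi_mean hp0 hp1
    simpa using this
  have m2 : p * phi p true ^ 2 + (1 - p) * phi p false ^ 2 = 1 := by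
    have := phi_sq hp0 hp1
    simpa [sq] using this
  rw [m1, mul_zero] at i1
  rw [m2, mul_one] at i2
  have e0 : ex p (fun x => (g x + phi p (x e) * h x) ^ 4) =
      ex p (fun x => g x ^ 4) + 4 * ex p (fun x => (g x ^ 3 * h x ^ 1) * phi p (x e) ^ 1) +
      6 * ex p (fun x => (g x ^ 2 * h x ^ 2) * phi p (x e) ^ 2) +
      4 * ex p (fun x => (g x ^ 1 * h x ^ 3) * phi p (x e) ^ 3) +
      ex p (fun x => (g x ^ 0 * h x ^ 4) * phi p (x e) ^ 4) := by
    rw [← ex_const_mul, ← ex_const_mul, ← ex_const_mul, ← ex_add, ← ex_add, ← ex_add, ← ex_add]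
    congr 1
    ext x
    ring
  rw [e0, i1, i2, i3, i4]
  change _ + 4 * 0 + _ + 4 * (_ * kap3 p) + _ * kap4 p ≤ _
  -- pointwise
  have pt : 4 * (ex p (fun x => g x ^ 1 * h x ^ 3) * kap3 p) ≤
      2 * ex p (fun x => g x ^ 2 * h x ^ 2) + 2 * kap3 p ^ 2 * ex p (fun x => h x ^ 4) := by
    rw [← ex_mul_const, ← ex_const_mul, ← ex_const_mul, ← ex_const_mul, ← ex_add]
    refine ex_mono hp0.le hp1.le fun x => ?_
    nlinarith [sq_nonneg (g x * h x - kap3 p * h x ^ 2)]
  have hh4 : 0 ≤ ex p (fun x => h x ^ 4) := ex_nonneg hp0.le hp1.le fun x => by positivity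
  have k3 := kap3_sq hp0 hp1
  have k4 := kap4_le hp0 hp1
  have e4 : ex p (fun x => g x ^ 0 * h x ^ 4) = ex p (fun x => h x ^ 4) := by
    congr 1; ext x; ring
  rw [e4]
  have hB : 2 * kap3 p ^ 2 + kap4 p ≤ 4 / (p * (1 - p)) := by
    have : 4 / (p * (1 - p)) = 4 * (1 / (p * (1 - p))) := by ring
    have h0 : 0 < 1 / (p * (1 - p)) := by positivity
    rw [this]; linarith
  nlinarith [mul_le_mul_of_nonneg_right hB hh4]

lemma chi_piecewise {p : ℝ} {e : ι} {A : Finset ι} (he : e ∉ A) (x y : ι → Bool) :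
    chi p A (({e} : Finset ι).piecewise y x) = chi p A x := by
  refine chi_congr fun a ha => ?_
  have : a ∉ ({e} : Finset ι) := by
    rw [mem_singleton]; rintro rfl; exact he ha
  exact Finset.piecewise_eq_of_notMem _ _ _ this

lemma bonami_aux (p : ℝ) (hp0 : 0 < p) (hp1 : p < 1) (T : Finset ι) :
    ∀ (d : ℕ) (𝒜 : Finset (Finset ι)) (_ : ∀ A ∈ 𝒜, A ⊆ T) (_ : ∀ A ∈ 𝒜, A.card ≤ d)
      (c : Finset ι → ℝ),
    ex p (fun x => (∑ A ∈ 𝒜, c A * chi p A x) ^ 4) ≤
      (4 / (p * (1 - p))) ^ d * (∑ A ∈ 𝒜, c A ^ 2) ^ 2 := by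
  have hB16 := B_ge hp0 hp1
  induction T using Finset.induction_on with
  | empty =>
    intro d 𝒜 hT hd c
    have h1 : ∀ x : ι → Bool, (∑ A ∈ 𝒜, c A * chi p A x) = ∑ A ∈ 𝒜, c A := by
      intro x
      refine sum_congr rfl fun A hA => ?_
      rw [subset_empty.1 (hT A hA), chi_empty, mul_one]
    simp_rw [h1]
    rw [ex_const]
    have hsub : 𝒜 ⊆ {∅} := fun A hA => mem_singleton.2 (subset_empty.1 (hT A hA))
    have h2 : (∑ A ∈ 𝒜, c A) ^ 2 = ∑ A ∈ 𝒜, c A ^ 2 := by
      rcases Finset.subset_singleton_iff.1 hsub with h | h <;> rw [h] <;> simp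
    have h3 : (∑ A ∈ 𝒜, c A) ^ 4 = (∑ A ∈ 𝒜, c A ^ 2) ^ 2 := by rw [← h2]; ring
    rw [h3]
    exact le_mul_of_one_le_left (sq_nonneg _) (one_le_pow₀ (by linarith))
  | insert e T heT ih =>
    intro d 𝒜 hT hd c
    set 𝒜₀ := 𝒜.filter (fun A => e ∉ A) with h𝒜₀
    set 𝒜₁ := 𝒜.filter (fun A => e ∈ A) with h𝒜₁
    have hsplit : ∀ F : Finset ι → ℝ, ∑ A ∈ 𝒜, F A = ∑ A ∈ 𝒜₀, F A + ∑ A ∈ 𝒜₁, F A := by
      intro F
      rw [add_comm, h𝒜₀, h𝒜₁, sum_filter_add_sum_filter_not]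
    have hT0 : ∀ A ∈ 𝒜₀, A ⊆ T := by
      intro A hA
      rw [h𝒜₀, mem_filter] at hA
      intro a ha
      rcases mem_insert.1 (hT A hA.1 ha) with h | h
      · exact absurd (h ▸ ha) hA.2
      · exact h
    have hd0 : ∀ A ∈ 𝒜₀, A.card ≤ d := fun A hA => hd A (mem_filter.1 hA).1
    have hG := ih d 𝒜₀ hT0 hd0 c
    rcases Finset.eq_empty_or_nonempty 𝒜₁ with h1e | ⟨A₁, hA₁⟩
    · simp_rw [hsplit, h1e, sum_empty, add_zero]
      exact hG
    · obtain ⟨d', rfl⟩ : ∃ d', d = d' + 1 := by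
        have hA1 := mem_filter.1 hA₁
        have : 0 < A₁.card := card_pos.2 ⟨e, hA1.2⟩
        have := hd A₁ hA1.1
        exact ⟨d - 1, by omega⟩
      -- the derivative
      set ℬ := 𝒜₁.image (fun A => A.erase e) with hℬ
      have hinj : Set.InjOn (fun A : Finset ι => A.erase e) (𝒜₁ : Set (Finset ι)) := by
        intro A hA A' hA' h
        rw [mem_coe, h𝒜₁, mem_filter] at hA hA'
        have h' : A.erase e = A'.erase e := h
        rw [← insert_erase hA.2, h', insert_erase hA'.2]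
      have hTB : ∀ A ∈ ℬ, A ⊆ T := by
        intro A hA
        rw [hℬ, mem_image] at hA
        obtain ⟨A', hA', rfl⟩ := hA
        rw [h𝒜₁, mem_filter] at hA'
        intro a ha
        rw [mem_erase] at ha
        rcases mem_insert.1 (hT A' hA'.1 ha.2) with h | h
        · exact absurd h ha.1
        · exact h
      have hdB : ∀ A ∈ ℬ, A.card ≤ d' := by
        intro A hA
        rw [hℬ, mem_image] at hA
        obtain ⟨A', hA', rfl⟩ := hA
        rw [h𝒜₁, mem_filter] at hA'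
        have := card_erase_of_mem hA'.2
        have := hd A' hA'.1
        omega
      have hH := ih d' ℬ hTB hdB (fun A => c (insert e A))
      have heB : ∀ A ∈ ℬ, e ∉ A := by
        intro A hA
        rw [hℬ, mem_image] at hA
        obtain ⟨A', hA', rfl⟩ := hA
        exact notMem_erase e A'
      have hsumB : ∀ F : Finset ι → ℝ, ∑ A ∈ ℬ, F (insert e A) = ∑ A ∈ 𝒜₁, F A := by
        intro F
        rw [hℬ, sum_image hinj]
        refine sum_congr rfl fun A hA => ?_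
        rw [insert_erase (mem_filter.1 hA).2]
      have hcB : ∑ A ∈ ℬ, c (insert e A) ^ 2 = ∑ A ∈ 𝒜₁, c A ^ 2 := hsumB (fun A => c A ^ 2)
      rw [hcB] at hH
      set g : (ι → Bool) → ℝ := fun x => ∑ A ∈ 𝒜₀, c A * chi p A x with hg
      set h : (ι → Bool) → ℝ := fun x => ∑ A ∈ ℬ, c (insert e A) * chi p A x with hh
      have hf : ∀ x, (∑ A ∈ 𝒜, c A * chi p A x) = g x + phi p (x e) * h x := by
        intro x
        rw [hsplit (fun A => c A * chi p A x)]
        congr 1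
        rw [hh]
        simp only
        rw [mul_sum, ← hsumB (fun A => c A * chi p A x)]
        refine sum_congr rfl fun A hA => ?_
        have : chi p (insert e A) x = phi p (x e) * chi p A x := by
          unfold chi; rw [prod_insert (heB A hA)]
        rw [this]; ring
      simp_rw [hf]
      have hgp : ∀ x y, g (({e} : Finset ι).piecewise y x) = g x := by
        intro x y
        rw [hg]
        refine sum_congr rfl fun A hA => ?_
        rw [chi_piecewise (mem_filter.1 hA).2]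
      have hhp : ∀ x y, h (({e} : Finset ι).piecewise y x) = h x := by
        intro x y
        rw [hh]
        refine sum_congr rfl fun A hA => ?_
        rw [chi_piecewise (heB A hA)]
      have main := two_fun hp0 hp1 e g h hgp hhp
      have cs := ex_cs hp0 hp1 g h
      set B := 4 / (p * (1 - p)) with hB
      rw [hsplit (fun A => c A ^ 2)]
      set G2 := ∑ A ∈ 𝒜₀, c A ^ 2 with hG2
      set H2 := ∑ A ∈ 𝒜₁, c A ^ 2 with hH2
      have hG2n : 0 ≤ G2 := sum_nonneg fun A _ => sq_nonneg _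
      have hH2n : 0 ≤ H2 := sum_nonneg fun A _ => sq_nonneg _
      set X := ex p (fun x => g x ^ 2 * h x ^ 2) with hX
      have hXn : 0 ≤ X := ex_nonneg hp0.le hp1.le fun x => by positivity
      have hg4 : 0 ≤ ex p (fun x => g x ^ 4) := ex_nonneg hp0.le hp1.le fun x => by positivity
      have hh4 : 0 ≤ ex p (fun x => h x ^ 4) := ex_nonneg hp0.le hp1.le fun x => by positivity
      have hB0 : 0 < B := by linarith
      have hBd : 0 < B ^ d' := pow_pos hB0 _
      have hX2 : 4 * X ≤ B ^ (d' + 1) * (G2 * H2) := by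
        refine abs_le_of_sq_le_sq' ?_ (by positivity) |>.2
        calc (4 * X) ^ 2 = 16 * X ^ 2 := by ring
          _ ≤ 16 * (ex p (fun x => g x ^ 4) * ex p (fun x => h x ^ 4)) := by
              exact mul_le_mul_of_nonneg_left cs (by norm_num)
          _ ≤ 16 * ((B ^ (d' + 1) * G2 ^ 2) * (B ^ d' * H2 ^ 2)) := by
              refine mul_le_mul_of_nonneg_left ?_ (by norm_num)
              exact mul_le_mul hG hH hh4 (by positivity)
          _ = 16 * (B ^ d' * B ^ (d' + 1) * (G2 ^ 2 * H2 ^ 2)) := by ring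
          _ ≤ B * (B ^ d' * B ^ (d' + 1) * (G2 ^ 2 * H2 ^ 2)) := by
              refine mul_le_mul_of_nonneg_right hB16 (by positivity)
          _ = (B ^ (d' + 1) * (G2 * H2)) ^ 2 := by ring
      calc ex p (fun x => (g x + phi p (x e) * h x) ^ 4)
          ≤ ex p (fun x => g x ^ 4) + 8 * X + B * ex p (fun x => h x ^ 4) := main
        _ ≤ B ^ (d' + 1) * G2 ^ 2 + 2 * (B ^ (d' + 1) * (G2 * H2)) + B * (B ^ d' * H2 ^ 2) := by
            have := mul_le_mul_of_nonneg_left hH hB0.le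
            linarith
        _ = B ^ (d' + 1) * (G2 + H2) ^ 2 := by ring

/-- 4-norm hypercontractivity for low degree polynomials on the p-biased cube -/
theorem bonami (p : ℝ) (hp0 : 0 < p) (hp1 : p < 1)
    (d : ℕ) (𝒜 : Finset (Finset ι)) (h𝒜 : ∀ A ∈ 𝒜, A.card ≤ d) (c : Finset ι → ℝ) :
    ex p (fun x => (∑ A ∈ 𝒜, c A * chi p A x) ^ 4) ≤
      (4 / (p * (1 - p))) ^ d * (∑ A ∈ 𝒜, c A ^ 2) ^ 2 :=
  bonami_aux p hp0 hp1 univ d 𝒜 (fun A _ => subset_univ A) h𝒜 c

end P063
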