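import Vale.Agent.P063.Fourier

/-!
# P063: total influence
-/

namespace P063

open Finset

set_option linter.unusedSectionVars false
set_option linter.unusedVariables false

variable {ι : Type*} [Fintype ι] [DecidableEq ι] {p : ℝ}

/-- discrete derivative -/
def dd (e : ι) (f : (ι → Bool) → ℝ) (x : ι → Bool) : ℝ :=
  f (Function.update x e true) - f (Function.update x e false)

lemma ex_single (p : ℝ) (e : ι) (G : Bool → ℝ) :
    ex p (fun y : ι → Bool => G (y e)) = p * G true + (1 - p) * G false := by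
  have h := ex_prod p (fun (e' : ι) b => if e' = e then G b else 1)
  have h1 : (fun x : ι → Bool => ∏ e', (if e' = e then G (x e') else 1)) = fun x => G (x e) := by
    ext x
    rw [Finset.prod_ite_eq' univ e (fun e' => G (x e'))]
    simp
  rw [h1] at h
  rw [h, prod_eq_single e]
  · simp
  · intro b _ hb
    simp [hb]
  · simp

lemma fc_eq_dd (hp0 : 0 < p) (hp1 : p < 1) (f : (ι → Bool) → ℝ) (e : ι) (S : Finset ι)
    (he : e ∈ S) : fc p f S = Real.sqrt (p * (1 - p)) * fc p (dd e f) (S.erase e) := by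
  have hq : 0 < p * (1 - p) := mul_pos hp0 (by linarith)
  have hs : Real.sqrt (p * (1 - p)) * Real.sqrt (p * (1 - p)) = p * (1 - p) :=
    Real.mul_self_sqrt hq.le
  have hs0 : Real.sqrt (p * (1 - p)) ≠ 0 := (Real.sqrt_pos.2 hq).ne'
  unfold fc
  rw [← ex_resample p {e} (fun x => f x * chi p S x), ← ex_const_mul]
  congr 1
  ext x
  have h1 : ∀ y : ι → Bool, f (({e} : Finset ι).piecewise y x) *
      chi p S (({e} : Finset ι).piecewise y x) =
      (fun b : Bool => f (Function.update x e b) * (phi p b * chi p (S.erase e) x)) (y e) := by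
    intro y
    rw [Finset.piecewise_singleton]
    simp only
    congr 1
    unfold chi
    rw [← mul_prod_erase S _ he]
    rw [Function.update_self]
    congr 1
    refine prod_congr rfl fun e' he' => ?_
    rw [Function.update_of_ne (ne_of_mem_erase he')]
  have h2 := ex_single p e
    (fun b : Bool => f (Function.update x e b) * (phi p b * chi p (S.erase e) x))
  rw [show (fun y : ι → Bool => f (({e} : Finset ι).piecewise y x) *
      chi p S (({e} : Finset ι).piecewise y x)) = fun y => (fun b : Bool =>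
        f (Function.update x e b) * (phi p b * chi p (S.erase e) x)) (y e) from funext h1, h2]
  unfold dd phi
  simp only [if_true, Bool.false_eq_true, if_false]
  field_simp
  rw [sq, hs]
  ring

/-- total influence (Fourier form) -/
noncomputable def tinf (p : ℝ) (f : (ι → Bool) → ℝ) : ℝ :=
  ∑ S : Finset ι, (S.card : ℝ) * fc p f S ^ 2

lemma tinf_nonneg (f : (ι → Bool) → ℝ) : 0 ≤ tinf p f :=
  sum_nonneg fun _ _ => mul_nonneg (Nat.cast_nonneg _) (sq_nonneg _)

theorem tinf_le (hp0 : 0 < p) (hp1 : p < 1) (f : (ι → Bool) → ℝ) :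
    tinf p f ≤ p * (1 - p) * ∑ e : ι, ex p (fun x => dd e f x ^ 2) := by
  have hq : 0 < p * (1 - p) := mul_pos hp0 (by linarith)
  have hs : Real.sqrt (p * (1 - p)) ^ 2 = p * (1 - p) := Real.sq_sqrt hq.le
  unfold tinf
  have h1 : ∀ S : Finset ι, (S.card : ℝ) * fc p f S ^ 2 =
      ∑ e : ι, if e ∈ S then fc p f S ^ 2 else 0 := by
    intro S
    rw [← sum_filter, sum_const, nsmul_eq_mul]
    congr 2
    congr 1
    ext e
    simp
  simp_rw [h1]
  rw [sum_comm, mul_sum]
  refine sum_le_sum fun e _ => ?_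
  rw [← sum_filter]
  have h2 : ∑ S : Finset ι with e ∈ S, fc p f S ^ 2 =
      p * (1 - p) * ∑ S : Finset ι with e ∈ S, fc p (dd e f) (S.erase e) ^ 2 := by
    rw [mul_sum]
    refine sum_congr rfl fun S hS => ?_
    rw [fc_eq_dd hp0 hp1 f e S (mem_filter.1 hS).2, mul_pow, hs]
  rw [h2]
  refine mul_le_mul_of_nonneg_left ?_ hq.le
  have h3 : ∑ S : Finset ι with e ∈ S, fc p (dd e f) (S.erase e) ^ 2 =
      ∑ T ∈ (univ.filter (fun S : Finset ι => e ∈ S)).image (fun S => S.erase e),
        fc p (dd e f) T ^ 2 := by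
    rw [sum_image]
    intro S hS S' hS' h
    have hS1 : e ∈ S := (mem_filter.1 (mem_coe.1 hS)).2
    have hS2 : e ∈ S' := (mem_filter.1 (mem_coe.1 hS')).2
    simp only at h
    rw [← insert_erase hS1, ← insert_erase hS2, h]
  rw [h3]
  exact bessel hp0 hp1 _ _

end P063
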