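import Vale.Agent.P063.Key
import Vale.Agent.P063.Influence

/-!
# P063: combinatorics of hypergraph properties
-/

namespace P063

open Finset

set_option linter.unusedSectionVars false
set_option linter.unusedVariables false

variable {n r : ℕ}

/-- the vertices covered by a set of edges -/
def verts (S : Finset (Edge n r)) : Finset (Fin n) := S.biUnion (fun e => e.1)

/-- all edges containing `u` -/
def star (u : Fin n) : Finset (Edge n r) := univ.filter (fun e => u ∈ e.1)

/-- degree -/
def deg (S : Finset (Edge n r)) (u : Fin n) : ℕ := (S.filter (fun e => u ∈ e.1)).card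

lemma mem_verts {S : Finset (Edge n r)} {u : Fin n} : u ∈ verts S ↔ ∃ e ∈ S, u ∈ e.1 := by
  unfold verts; rw [mem_biUnion]

lemma deg_pos {S : Finset (Edge n r)} {u : Fin n} (h : u ∈ verts S) : 1 ≤ deg S u := by
  obtain ⟨e, he, hu⟩ := mem_verts.1 h
  exact card_pos.2 ⟨e, mem_filter.2 ⟨he, hu⟩⟩

lemma sum_deg (S : Finset (Edge n r)) : ∑ u ∈ verts S, deg S u = r * S.card := by
  unfold deg
  simp_rw [card_filter]
  rw [sum_comm]
  have : ∀ e ∈ S, (∑ u ∈ verts S, if u ∈ e.1 then 1 else 0) = r := by
    intro e he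
    rw [← card_filter]
    have h : (verts S).filter (fun u => u ∈ e.1) = e.1 := by
      ext u
      rw [mem_filter]
      exact ⟨fun h => h.2, fun h => ⟨mem_verts.2 ⟨e, he, h⟩, h⟩⟩
    rw [h, e.2]
  rw [sum_congr rfl this, sum_const, smul_eq_mul, mul_comm]

lemma card_verts_le (S : Finset (Edge n r)) : (verts S).card ≤ r * S.card := by
  rw [← sum_deg, card_eq_sum_ones]
  exact sum_le_sum fun u hu => deg_pos hu

lemma deg_le (hr : 2 ≤ r) (S : Finset (Edge n r)) (u : Fin n) (hu : u ∈ verts S) :
    deg S u ≤ (verts S).card ^ (r - 1) := by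
  unfold deg
  have h1 : (S.filter (fun e => u ∈ e.1)).card ≤
      (powersetCard (r - 1) ((verts S).erase u)).card := by
    refine card_le_card_of_injOn (fun e => e.1.erase u) ?_ ?_
    · intro e he
      rw [mem_coe, mem_filter] at he
      rw [mem_coe, mem_powersetCard]
      refine ⟨?_, ?_⟩
      · intro w hw
        rw [mem_erase] at hw ⊢
        exact ⟨hw.1, mem_verts.2 ⟨e, he.1, hw.2⟩⟩
      · rw [card_erase_of_mem he.2, e.2]
    · intro e he e' he' h
      rw [mem_coe, mem_filter] at he he'
      apply Subtype.ext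
      simp only at h
      rw [← insert_erase he.2, ← insert_erase he'.2, h]
  refine h1.trans ?_
  rw [card_powersetCard, card_erase_of_mem hu]
  refine (Nat.choose_le_pow _ _).trans ?_
  exact Nat.pow_le_pow_left (Nat.sub_le _ _) _

/-- every set of edges with all degrees `≥ d+1` has at least `(d+1)^{r/(r-1)}/r` edges. -/
lemma card_ge (hr : 2 ≤ r) (S : Finset (Edge n r)) (hS : S.Nonempty) (d : ℕ)
    (h : ∀ u ∈ verts S, d + 1 ≤ deg S u) :
    ((d : ℝ) + 1) ^ ((r : ℝ) / ((r : ℝ) - 1)) ≤ r * S.card := by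
  obtain ⟨e, he⟩ := hS
  have hne : e.1.Nonempty := card_pos.1 (by rw [e.2]; omega)
  obtain ⟨u, hu⟩ := hne
  have huv : u ∈ verts S := mem_verts.2 ⟨e, he, hu⟩
  set v := (verts S).card with hv
  have hvpos : 0 < v := card_pos.2 ⟨u, huv⟩
  have h1 : v * (d + 1) ≤ r * S.card := by
    rw [← sum_deg, hv, ← smul_eq_mul, ← sum_const]
    exact sum_le_sum fun w hw => h w hw
  have h2 : d + 1 ≤ v ^ (r - 1) := (h u huv).trans (deg_le hr S u huv)
  have h1' : (v : ℝ) * ((d : ℝ) + 1) ≤ r * S.card := by exact_mod_cast h1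
  have h2' : ((d : ℝ) + 1) ≤ (v : ℝ) ^ (r - 1) := by exact_mod_cast h2
  have hr1 : (0 : ℝ) < (r : ℝ) - 1 := by
    have : (2 : ℝ) ≤ r := by exact_mod_cast hr
    linarith
  have hd : (0 : ℝ) < (d : ℝ) + 1 := by positivity
  have h3 : ((d : ℝ) + 1) ^ (1 / ((r : ℝ) - 1)) ≤ v := by
    have h4 : ((v : ℝ) ^ (r - 1)) ^ (1 / ((r : ℝ) - 1)) = v := by
      rw [← Real.rpow_natCast, ← Real.rpow_mul (Nat.cast_nonneg v)]
      have : ((r - 1 : ℕ) : ℝ) = (r : ℝ) - 1 := by
        rw [Nat.cast_sub (by omega)]; simp
      rw [this, mul_one_div_cancel hr1.ne', Real.rpow_one]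
    rw [← h4]
    exact Real.rpow_le_rpow hd.le h2' (by positivity)
  have h5 : (r : ℝ) / ((r : ℝ) - 1) = 1 / ((r : ℝ) - 1) + 1 := by
    field_simp
    ring
  rw [h5, Real.rpow_add hd, Real.rpow_one]
  exact (mul_le_mul_of_nonneg_right h3 hd.le).trans h1'

/-! ### classes -/

/-- residue classes -/
def cls (n k i : ℕ) : Finset (Fin n) := univ.filter (fun v => v.val % k = i)

lemma card_cls (n k i : ℕ) (hi : i < k) : n / k ≤ (cls n k i).card := by
  have hk : 0 < k := by omega
  have h : (range (n / k)).image (fun j => j * k + i) ⊆ (cls n k i).image (fun v => v.val) := by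
    intro a ha
    rw [mem_image] at ha
    obtain ⟨j, hj, rfl⟩ := ha
    rw [mem_range] at hj
    have h1 : (j + 1) * k ≤ n := (Nat.mul_le_mul_right k hj).trans (Nat.div_mul_le_self n k)
    have h2 : j * k + i < n := by
      have : (j + 1) * k = j * k + k := by ring
      omega
    rw [mem_image]
    refine ⟨⟨j * k + i, h2⟩, ?_, rfl⟩
    unfold cls
    rw [mem_filter]
    refine ⟨mem_univ _, ?_⟩
    simp only
    rw [mul_comm, Nat.mul_add_mod, Nat.mod_eq_of_lt hi]
  have h1 := card_le_card h
  rw [card_image_of_injective, card_range] at h1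
  · exact h1.trans card_image_le
  · intro a b hab
    simp only at hab
    exact Nat.eq_of_mul_eq_mul_right hk (by omega)

/-! ### the symmetric group action on edges -/

/-- permutation of the edges induced by a permutation of the vertices -/
def edgePerm (π : Equiv.Perm (Fin n)) : Equiv.Perm (Edge n r) where
  toFun := mapEdge π
  invFun := mapEdge π.symm
  left_inv e := by
    apply Subtype.ext
    ext v
    simp [mapEdge]
  right_inv e := by
    apply Subtype.ext
    ext v
    simp [mapEdge]

lemma mem_mapEdge (π : Equiv.Perm (Fin n)) (e : Edge n r) (v : Fin n) :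
    v ∈ (mapEdge π e).1 ↔ π.symm v ∈ e.1 := by
  simp only [mapEdge, mem_map_equiv]

lemma swap_mem_iff {U : Finset (Fin n)} {u w v : Fin n} (hu : u ∈ U) (hw : w ∈ U) :
    Equiv.swap u w v ∈ U ↔ v ∈ U := by
  by_cases h1 : v = u
  · subst h1; simp [hu, hw]
  · by_cases h2 : v = w
    · subst h2; simp [hu, hw]
    · rw [Equiv.swap_apply_of_ne_of_ne h1 h2]

/-- edges meeting `U` -/
def touch (r : ℕ) (U : Finset (Fin n)) : Finset (Edge n r) :=
  univ.filter (fun e => ¬ Disjoint e.1 U)

/-- edges meeting `U` exactly in `w` -/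
def only (r : ℕ) (U : Finset (Fin n)) (w : Fin n) : Finset (Edge n r) :=
  univ.filter (fun e => e.1 ∩ U = {w})

lemma only_subset_touch (U : Finset (Fin n)) (w : Fin n) : only r U w ⊆ touch r U := by
  intro e he
  unfold only at he
  unfold touch
  rw [mem_filter] at he ⊢
  refine ⟨mem_univ _, ?_⟩
  rw [disjoint_iff_inter_eq_empty, he.2]
  exact singleton_ne_empty w

lemma only_subset_star (U : Finset (Fin n)) (w : Fin n) : only r U w ⊆ star w := by
  intro e he
  unfold only at he
  unfold star
  rw [mem_filter] at he ⊢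
  refine ⟨mem_univ _, ?_⟩
  have : w ∈ e.1 ∩ U := by rw [he.2]; exact mem_singleton_self w
  exact (mem_inter.1 this).1

lemma sym_exists (f : Hyper n r → ℝ) (hf : ∀ (π : Equiv.Perm (Fin n)) (x : Hyper n r),
      f (x ∘ edgePerm π) = f x) (U : Finset (Fin n)) (u : Fin n) (hu : u ∈ U) (w : Fin n)
    (hw : w ∈ U) : ∃ σ : Equiv.Perm (Edge n r), (∀ x, f (x ∘ σ) = f x) ∧
      (∀ e, e ∉ touch r U → σ e = e) ∧ (∀ e, e ∈ only r U u ↔ σ e ∈ only r U w) := by
  refine ⟨edgePerm (Equiv.swap u w), hf _, ?_, ?_⟩
  · intro e he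
    unfold touch at he
    rw [mem_filter, not_and, not_not] at he
    have hd := he (mem_univ _)
    apply Subtype.ext
    ext v
    change v ∈ (mapEdge (Equiv.swap u w) e).1 ↔ v ∈ e.1
    rw [mem_mapEdge, Equiv.symm_swap]
    by_cases h1 : v = u
    · subst h1
      rw [Equiv.swap_apply_left]
      exact ⟨fun h => absurd hw (disjoint_left.1 hd h), fun h => absurd hu (disjoint_left.1 hd h)⟩
    · by_cases h2 : v = w
      · subst h2
        rw [Equiv.swap_apply_right]
        exact ⟨fun h => absurd hu (disjoint_left.1 hd h),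
          fun h => absurd hw (disjoint_left.1 hd h)⟩
      · rw [Equiv.swap_apply_of_ne_of_ne h1 h2]
  · intro e
    unfold only
    rw [mem_filter, mem_filter]
    simp only [mem_univ, true_and]
    change e.1 ∩ U = {u} ↔ (mapEdge (Equiv.swap u w) e).1 ∩ U = {w}
    constructor
    · intro h
      ext v
      rw [mem_inter, mem_mapEdge, Equiv.symm_swap, ← swap_mem_iff hu hw (v := v), ← mem_inter, h,
        mem_singleton, mem_singleton]
      constructor
      · intro h'
        have := congrArg (Equiv.swap u w) h'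
        rwa [Equiv.swap_apply_self, Equiv.swap_apply_left] at this
      · rintro rfl
        exact Equiv.swap_apply_right _ _
    · intro h
      ext v
      have h3 : v ∈ e.1 ↔ Equiv.swap u w v ∈ (mapEdge (Equiv.swap u w) e).1 := by
        rw [mem_mapEdge, Equiv.symm_swap, Equiv.swap_apply_self]
      rw [mem_inter, h3, ← swap_mem_iff hu hw (v := v), ← mem_inter, h,
        mem_singleton, mem_singleton]
      constructor
      · intro h'
        have := congrArg (Equiv.swap u w) h'
        rwa [Equiv.swap_apply_self, Equiv.swap_apply_right] at this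
      · rintro rfl
        exact Equiv.swap_apply_left _ _

end P063
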