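import Vale.Agent.P063.Statement

/-!
# P063: analysis on the `p`-biased cube `ι → Bool` (definitions)
-/

namespace P063

section cube

variable {ι : Type*} [Fintype ι] [DecidableEq ι]

/-- weight of a point of the `p`-biased cube -/
def wt (p : ℝ) (x : ι → Bool) : ℝ := ∏ e, (if x e then p else 1 - p)

/-- expectation over the `p`-biased cube -/
def ex (p : ℝ) (f : (ι → Bool) → ℝ) : ℝ := ∑ x, wt p x * f x

/-- normalised bit -/
noncomputable def phi (p : ℝ) (b : Bool) : ℝ :=
  if b then (1 - p) / Real.sqrt (p * (1 - p)) else -p / Real.sqrt (p * (1 - p))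

/-- characters -/
noncomputable def chi (p : ℝ) (S : Finset ι) (x : ι → Bool) : ℝ := ∏ e ∈ S, phi p (x e)

/-- Fourier coefficients -/
noncomputable def fc (p : ℝ) (f : (ι → Bool) → ℝ) (S : Finset ι) : ℝ :=
  ex p (fun x => f x * chi p S x)

end cube

end P063
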