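import Mathlib

/-!
# P063: choice of parameters
-/

namespace P063

open Real

theorem param (n r : ℕ) (hr : 2 ≤ r) (hn : r ≤ n) (p : ℝ) (hp0 : 0 < p) (hp1 : p < 1) :
    ∃ (k d : ℕ) (lam : ℝ), 1 ≤ k ∧ 0 < lam ∧
      2 * (4 / (p * (1 - p))) ^ d ≤ lam ^ 3 * ((n / k : ℕ) : ℝ) ∧
      p * (1 - p) * (2 * r / k + 8 * r * lam +
        r / ((d : ℝ) + 1) ^ ((r : ℝ) / ((r : ℝ) - 1))) ≤
      3136 * r * (Real.log n) ^ (-((r : ℝ) / ((r : ℝ) - 1))) := by
  have hq : 0 < p * (1 - p) := mul_pos hp0 (by linarith)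
  have hq4 : p * (1 - p) ≤ 1 / 4 := by nlinarith [sq_nonneg (p - 1 / 2)]
  set q : ℝ := p * (1 - p) with hqdef
  set B : ℝ := 4 / q with hB
  have hB16 : 16 ≤ B := by
    rw [hB, le_div_iff₀ hq]; linarith
  have hBpos : 0 < B := by linarith
  have hqB : q = 4 / B := by rw [hB]; field_simp
  set N : ℝ := (n : ℝ) with hN
  have hn2 : 2 ≤ n := hr.trans hn
  have hN2 : (2 : ℝ) ≤ N := by rw [hN]; exact_mod_cast hn2
  have hNpos : 0 < N := by linarith
  set L : ℝ := Real.log N with hL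
  have hLpos : 0 < L := Real.log_pos (by linarith)
  have hr' : (2 : ℝ) ≤ r := by exact_mod_cast hr
  have hr1 : (0 : ℝ) < (r : ℝ) - 1 := by linarith
  set ρ : ℝ := (r : ℝ) / ((r : ℝ) - 1) with hρ
  have hρ0 : 0 < ρ := by positivity
  have hρ2 : ρ ≤ 2 := by rw [hρ, div_le_iff₀ hr1]; linarith
  have hlogB : 1 ≤ 4 * Real.log B := by
    have h1 : Real.log 16 ≤ Real.log B := Real.log_le_log (by norm_num) hB16
    have h2 : Real.exp 1 ≤ 16 := by
      have := Real.exp_one_lt_d9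
      linarith
    have h3 : 1 ≤ Real.log 16 := by
      rw [Real.le_log_iff_exp_le (by norm_num)]; exact h2
    linarith
  have hlogBpos : 0 < Real.log B := by linarith
  -- the choice
  set s : ℕ := Nat.sqrt n with hs
  have hs1 : 1 ≤ s := by
    rw [hs, Nat.le_sqrt]; omega
  set d : ℕ := ⌊L / (4 * Real.log B)⌋₊ with hd
  set lam : ℝ := 2 * N ^ (-(1 / 12) : ℝ) with hlam
  have hlampos : 0 < lam := by positivity
  have hsN : Real.sqrt N ≤ 2 * s := by
    have h1 : n < (s + 1) * (s + 1) := Nat.lt_succ_sqrt n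
    have h2 : (n : ℝ) ≤ ((s : ℝ) + 1) * ((s : ℝ) + 1) := by exact_mod_cast h1.le
    have h3 : (1 : ℝ) ≤ s := by exact_mod_cast hs1
    rw [Real.sqrt_le_left (by positivity)]
    rw [hN]
    nlinarith
  have hspos : (0 : ℝ) < s := by
    have : (1 : ℝ) ≤ s := by exact_mod_cast hs1
    linarith
  have hdiv : s ≤ n / s := by
    rw [Nat.le_div_iff_mul_le (by omega)]
    exact Nat.sqrt_le n
  have hNs : N ^ (1 / 2 : ℝ) = Real.sqrt N := (Real.sqrt_eq_rpow N).symm
  refine ⟨s, d, lam, hs1, hlampos, ?_, ?_⟩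
  · -- 2 B^d ≤ lam^3 (n / s)
    have hBd : B ^ d ≤ N ^ (1 / 4 : ℝ) := by
      have h1 : (d : ℝ) ≤ L / (4 * Real.log B) := Nat.floor_le (by positivity)
      have h2 : (d : ℝ) * Real.log B ≤ L * (1 / 4) := by
        rw [le_div_iff₀ (by positivity)] at h1
        linarith
      rw [← Real.rpow_natCast, Real.rpow_def_of_pos hBpos, Real.rpow_def_of_pos hNpos]
      apply Real.exp_le_exp.2
      rw [mul_comm]
      exact h2
    have hlam3 : lam ^ 3 = 8 * N ^ (-(1 / 4) : ℝ) := by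
      rw [hlam, mul_pow, ← Real.rpow_natCast (N ^ (-(1 / 12) : ℝ)), ← Real.rpow_mul hNpos.le]
      norm_num
    have h1 : ((s : ℝ)) ≤ ((n / s : ℕ) : ℝ) := by exact_mod_cast hdiv
    have h2 : 8 * N ^ (-(1 / 4) : ℝ) * (Real.sqrt N / 2) ≤ lam ^ 3 * ((n / s : ℕ) : ℝ) := by
      rw [hlam3]
      refine mul_le_mul_of_nonneg_left ?_ (by positivity)
      linarith
    have h3 : N ^ (-(1 / 4) : ℝ) * Real.sqrt N = N ^ (1 / 4 : ℝ) := by
      rw [← hNs, ← Real.rpow_add hNpos]; norm_num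
    have h4 : 0 ≤ N ^ (1 / 4 : ℝ) := by positivity
    calc 2 * B ^ d ≤ 2 * N ^ (1 / 4 : ℝ) := by linarith
      _ ≤ 4 * (N ^ (-(1 / 4) : ℝ) * Real.sqrt N) := by rw [h3]; linarith
      _ = 8 * N ^ (-(1 / 4) : ℝ) * (Real.sqrt N / 2) := by ring
      _ ≤ _ := h2
  · -- the numerical bound
    have hLρ : L ^ ρ ≤ 576 * N ^ (1 / 12 : ℝ) := by
      have hN1 : 1 ≤ N ^ (1 / 12 : ℝ) := Real.one_le_rpow (by linarith) (by norm_num)
      rcases le_total L 1 with h | h
      · have : L ^ ρ ≤ 1 := Real.rpow_le_one hLpos.le h hρ0.le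
        linarith
      · have h1 : L ^ ρ ≤ L ^ (2 : ℝ) := Real.rpow_le_rpow_of_exponent_le h hρ2
        have h2 : L ≤ N ^ (1 / 24 : ℝ) / (1 / 24) := Real.log_le_rpow_div hNpos.le (by norm_num)
        have h3 : L ^ (2 : ℝ) ≤ (24 * N ^ (1 / 24 : ℝ)) ^ (2 : ℝ) := by
          refine Real.rpow_le_rpow hLpos.le ?_ (by norm_num)
          calc L ≤ N ^ (1 / 24 : ℝ) / (1 / 24) := h2
            _ = 24 * N ^ (1 / 24 : ℝ) := by ring
        have h4 : (24 * N ^ (1 / 24 : ℝ)) ^ (2 : ℝ) = 576 * N ^ (1 / 12 : ℝ) := by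
          rw [Real.mul_rpow (by norm_num) (by positivity), ← Real.rpow_mul hNpos.le]
          norm_num
        linarith
    have hLρpos : 0 < L ^ ρ := Real.rpow_pos_of_pos hLpos ρ
    have hN12 : N ^ (-(1 / 12) : ℝ) ≤ 576 * L ^ (-ρ) := by
      rw [Real.rpow_neg hNpos.le, Real.rpow_neg hLpos.le]
      have hN12pos : 0 < N ^ (1 / 12 : ℝ) := by positivity
      rw [← one_div, ← div_eq_mul_inv, div_le_div_iff₀ hN12pos hLρpos]
      linarith
    have ha : q * (2 * r / s) ≤ r * N ^ (-(1 / 12) : ℝ) := by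
      have h1 : (2 * r / s : ℝ) ≤ 4 * r / Real.sqrt N := by
        have hsq : 0 < Real.sqrt N := Real.sqrt_pos.2 hNpos
        rw [div_le_div_iff₀ hspos hsq]
        have : 2 * (r : ℝ) * Real.sqrt N ≤ 2 * r * (2 * s) :=
          mul_le_mul_of_nonneg_left hsN (by positivity)
        linarith
      have h2 : q * (2 * r / s) ≤ (1 / 4) * (4 * r / Real.sqrt N) :=
        mul_le_mul hq4 h1 (by positivity) (by norm_num)
      have h3 : (1 / Real.sqrt N : ℝ) ≤ N ^ (-(1 / 12) : ℝ) := by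
        rw [← hNs, one_div, ← Real.rpow_neg hNpos.le]
        exact Real.rpow_le_rpow_of_exponent_le (by linarith) (by norm_num)
      calc q * (2 * r / s) ≤ (1 / 4) * (4 * r / Real.sqrt N) := h2
        _ = r * (1 / Real.sqrt N) := by ring
        _ ≤ _ := mul_le_mul_of_nonneg_left h3 (by positivity)
    have hb : q * (8 * r * lam) ≤ 4 * r * N ^ (-(1 / 12) : ℝ) := by
      calc q * (8 * r * lam) ≤ (1 / 4) * (8 * r * lam) :=
            mul_le_mul_of_nonneg_right hq4 (by positivity)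
        _ = 4 * r * N ^ (-(1 / 12) : ℝ) := by rw [hlam]; ring
    have hc : q * (r / ((d : ℝ) + 1) ^ ρ) ≤ 256 * r * L ^ (-ρ) := by
      have h1 : L / (4 * Real.log B) ≤ (d : ℝ) + 1 := (Nat.lt_floor_add_one _).le
      have h2 : (L / (4 * Real.log B)) ^ ρ ≤ ((d : ℝ) + 1) ^ ρ :=
        Real.rpow_le_rpow (by positivity) h1 hρ0.le
      rw [Real.div_rpow hLpos.le (by positivity)] at h2
      have h3 : (4 * Real.log B) ^ ρ ≤ (4 * Real.log B) ^ (2 : ℝ) :=
        Real.rpow_le_rpow_of_exponent_le hlogB hρ2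
      have h4 : (4 * Real.log B) ^ (2 : ℝ) = 16 * Real.log B ^ 2 := by
        rw [Real.rpow_two]; ring
      have h5 : Real.log B ^ 2 ≤ 4 * B := by
        have h6 : Real.log B ≤ B ^ (1 / 2 : ℝ) / (1 / 2) :=
          Real.log_le_rpow_div hBpos.le (by norm_num)
        rw [← Real.sqrt_eq_rpow] at h6
        have h7 : Real.log B ≤ 2 * Real.sqrt B := by linarith
        calc Real.log B ^ 2 ≤ (2 * Real.sqrt B) ^ 2 := pow_le_pow_left₀ hlogBpos.le h7 2
          _ = 4 * B := by rw [mul_pow, Real.sq_sqrt hBpos.le]; norm_num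
      have h8 : (4 * Real.log B) ^ ρ ≤ 64 * B :=
        calc (4 * Real.log B) ^ ρ ≤ (4 * Real.log B) ^ (2 : ℝ) := h3
          _ = 16 * Real.log B ^ 2 := h4
          _ ≤ 64 * B := by linarith
      have h9 : 0 < (4 * Real.log B) ^ ρ := by positivity
      have h10 : L ^ ρ / (64 * B) ≤ ((d : ℝ) + 1) ^ ρ := by
        refine le_trans ?_ h2
        exact div_le_div_of_nonneg_left hLρpos.le h9 h8
      have h11 : 0 < L ^ ρ / (64 * B) := by positivity
      calc q * (r / ((d : ℝ) + 1) ^ ρ) ≤ q * (r / (L ^ ρ / (64 * B))) := by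
            refine mul_le_mul_of_nonneg_left ?_ hq.le
            exact div_le_div_of_nonneg_left (by positivity) h11 h10
        _ = 256 * r * (L ^ ρ)⁻¹ := by
            rw [hqB]; field_simp; norm_num
        _ = 256 * r * L ^ (-ρ) := by rw [Real.rpow_neg hLpos.le]
    have hfin : (r : ℝ) * N ^ (-(1 / 12) : ℝ) ≤ r * (576 * L ^ (-ρ)) :=
      mul_le_mul_of_nonneg_left hN12 (by positivity)
    have : q * (2 * r / s + 8 * r * lam + r / ((d : ℝ) + 1) ^ ρ) =
      q * (2 * r / s) + q * (8 * r * lam) + q * (r / ((d : ℝ) + 1) ^ ρ) := by ring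
    rw [this]
    linarith

end P063
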