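import Vale.Agent.P063.Defs

/-!
# P063: Russo's formula and the passage from the differential inequality to the threshold width
-/

namespace P063

open Finset

section russo

variable {ι : Type*} [Fintype ι] [DecidableEq ι]

set_option linter.unusedSectionVars false

/-- flip one coordinate -/
def flipAt (e : ι) (x : ι → Bool) : ι → Bool := Function.update x e (!x e)

theorem flipAt_flipAt (e : ι) (x : ι → Bool) : flipAt e (flipAt e x) = x := by
  funext i
  by_cases h : i = e
  · subst h; simp [flipAt]
  · simp [flipAt, h]

theorem two_mul_sum (e : ι) (F : (ι → Bool) → ℝ) :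
    2 * ∑ x, F x = ∑ x, (F (Function.update x e true) + F (Function.update x e false)) := by
  have h1 : ∀ x : ι → Bool, F (Function.update x e true) + F (Function.update x e false)
      = F x + F (flipAt e x) := by
    intro x
    rcases hb : x e with _ | _
    · have h2 : Function.update x e false = x := by
        rw [← hb]; exact Function.update_eq_self e x
      have h3 : Function.update x e true = flipAt e x := by
        simp [flipAt, hb]
      rw [h2, h3]; ring
    · have h2 : Function.update x e true = x := by
        rw [← hb]; exact Function.update_eq_self e x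
      have h3 : Function.update x e false = flipAt e x := by
        simp [flipAt, hb]
      rw [h2, h3]
  rw [Finset.sum_congr rfl (fun x _ => h1 x), Finset.sum_add_distrib]
  have h4 : ∑ x : ι → Bool, F (flipAt e x) = ∑ x, F x := by
    apply Finset.sum_bij' (fun x _ => flipAt e x) (fun x _ => flipAt e x)
    · intro x _; exact Finset.mem_univ _
    · intro x _; exact Finset.mem_univ _
    · intro x _; exact flipAt_flipAt e x
    · intro x _; exact flipAt_flipAt e x
    · intro x _; rfl
  rw [h4]; ring

theorem prod_erase_update (p : ℝ) (e : ι) (x : ι → Bool) (b : Bool) :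
    (∏ e' ∈ univ.erase e, (if (Function.update x e b) e' then p else 1 - p)) =
      ∏ e' ∈ univ.erase e, (if x e' then p else 1 - p) := by
  apply Finset.prod_congr rfl
  intro i hi
  have : i ≠ e := Finset.ne_of_mem_erase hi
  rw [Function.update_of_ne this]

theorem wt_eq_mul (p : ℝ) (e : ι) (x : ι → Bool) :
    wt p x = (if x e then p else 1 - p) * ∏ e' ∈ univ.erase e, (if x e' then p else 1 - p) := by
  unfold wt
  rw [Finset.mul_prod_erase univ (fun e => if x e then p else 1 - p) (Finset.mem_univ e)]

theorem russo_one (f : (ι → Bool) → ℝ) (p : ℝ) (e : ι) :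
    ∑ x : ι → Bool, (∏ e' ∈ univ.erase e, (if x e' then p else 1 - p)) *
      (if x e then (1 : ℝ) else -1) * f x =
    ex p (fun x => f (Function.update x e true) - f (Function.update x e false)) := by
  have h1 := two_mul_sum e (fun x : ι → Bool => (∏ e' ∈ univ.erase e, (if x e' then p else 1 - p)) *
      (if x e then (1 : ℝ) else -1) * f x)
  have h2 := two_mul_sum e (fun x : ι → Bool => wt p x *
    (f (Function.update x e true) - f (Function.update x e false)))
  unfold ex
  have h3 : ∀ a b : ℝ, 2 * a = 2 * b → a = b := fun a b h => by linarith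
  apply h3
  rw [h1, h2]
  apply Finset.sum_congr rfl
  intro x _
  simp only [wt_eq_mul p e, prod_erase_update, Function.update_idem, Function.update_self]
  simp
  ring

/-- **Russo's formula** -/
theorem hasDerivAt_ex (f : (ι → Bool) → ℝ) (p : ℝ) :
    HasDerivAt (fun p => ex p f)
      (∑ e : ι, ex p (fun x => f (Function.update x e true) - f (Function.update x e false))) p := by
  have h1 : ∀ x : ι → Bool, HasDerivAt (fun p => wt p x)
      (∑ e : ι, (∏ e' ∈ univ.erase e, (if x e' then p else 1 - p)) *
        (if x e then (1 : ℝ) else -1)) p := by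
    intro x
    unfold wt
    have h2 : ∀ e ∈ (univ : Finset ι), HasDerivAt (fun p : ℝ => if x e then p else 1 - p)
        (if x e then (1 : ℝ) else -1) p := by
      intro e _
      rcases hb : x e with _ | _
      · simpa using (hasDerivAt_id' p).const_sub 1
      · simpa using hasDerivAt_id' p
    have h3 := HasDerivAt.fun_finsetProd h2
    simpa [smul_eq_mul] using h3
  have h2 : HasDerivAt (fun p => ex p f) (∑ x : ι → Bool,
      (∑ e : ι, (∏ e' ∈ univ.erase e, (if x e' then p else 1 - p)) *
        (if x e then (1 : ℝ) else -1)) * f x) p := by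
    unfold ex
    apply HasDerivAt.fun_sum
    intro x _
    exact (h1 x).mul_const (f x)
  convert h2 using 1
  simp only [Finset.sum_mul]
  rw [Finset.sum_comm]
  apply Finset.sum_congr rfl
  intro e _
  exact (russo_one f p e).symm

end russo

section width

open Classical in
theorem mu_eq_ex {n r : ℕ} (P : Set (Hyper n r)) (p : ℝ) :
    mu p P = ex p (fun x => P.indicator (fun _ => (1 : ℝ)) x) := by
  unfold mu ex wt
  apply Finset.sum_congr rfl
  intro x _
  by_cases h : x ∈ P
  · simp [h]
  · simp [h]

theorem ex_one {ι : Type*} [Fintype ι] [DecidableEq ι] (p : ℝ) :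
    ex p (fun _ : ι → Bool => (1 : ℝ)) = 1 := by
  unfold ex wt
  simp only [mul_one]
  have h := Finset.prod_univ_sum (fun _ : ι => (univ : Finset Bool))
    (fun (_ : ι) (b : Bool) => if b then p else 1 - p)
  rw [Fintype.piFinset_univ] at h
  rw [← h]
  simp

theorem wt_nonneg' {ι : Type*} [Fintype ι] [DecidableEq ι] {p : ℝ} (h0 : 0 ≤ p) (h1 : p ≤ 1)
    (x : ι → Bool) : 0 ≤ wt p x := by
  unfold wt
  apply Finset.prod_nonneg
  intro e _
  split_ifs
  · exact h0
  · linarith

theorem mu_nonneg' {n r : ℕ} (P : Set (Hyper n r)) {p : ℝ} (h0 : 0 ≤ p) (h1 : p ≤ 1) :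
    0 ≤ mu p P := by
  rw [mu_eq_ex]
  unfold ex
  apply Finset.sum_nonneg
  intro x _
  apply mul_nonneg (wt_nonneg' h0 h1 x)
  exact Set.indicator_nonneg (fun _ _ => zero_le_one) x

theorem mu_le_one' {n r : ℕ} (P : Set (Hyper n r)) {p : ℝ} (h0 : 0 ≤ p) (h1 : p ≤ 1) :
    mu p P ≤ 1 := by
  rw [mu_eq_ex]
  refine le_trans ?_ (ex_one (ι := Edge n r) p).le
  unfold ex
  apply Finset.sum_le_sum
  intro x _
  apply mul_le_mul_of_nonneg_left _ (wt_nonneg' h0 h1 x)
  by_cases hx : x ∈ P
  · simp [hx]
  · simp [hx]

theorem mu_zero' {n r : ℕ} (P : Set (Hyper n r)) (hup : IsUpperSet P) (hnu : P ≠ Set.univ) :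
    mu 0 P = 0 := by
  rw [mu_eq_ex]
  unfold ex
  apply Finset.sum_eq_zero
  intro x _
  by_cases hx : x ∈ P
  · have h1 : ∃ e, x e = true := by
      by_contra hcon
      push Not at hcon
      apply hnu
      apply Set.eq_univ_of_forall
      intro y
      apply hup _ hx
      intro e
      have := hcon e
      simp only [ne_eq, Bool.not_eq_true] at this
      rw [this]
      exact Bool.false_le _
    obtain ⟨e, he⟩ := h1
    have : wt 0 x = 0 := by
      unfold wt
      apply Finset.prod_eq_zero (Finset.mem_univ e)
      simp [he]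
    rw [this, zero_mul]
  · simp [hx]

theorem mu_one' {n r : ℕ} (P : Set (Hyper n r)) (hup : IsUpperSet P) (hne : P.Nonempty) :
    mu 1 P = 1 := by
  rw [mu_eq_ex]
  refine Eq.trans ?_ (ex_one (ι := Edge n r) 1)
  unfold ex
  apply Finset.sum_congr rfl
  intro x _
  by_cases hx : x ∈ P
  · simp [hx]
  · have h1 : ∃ e, x e = false := by
      by_contra hcon
      push Not at hcon
      apply hx
      obtain ⟨y, hy⟩ := hne
      apply hup _ hy
      intro e
      have := hcon e
      simp only [ne_eq, Bool.not_eq_false] at this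
      rw [this]
      exact Bool.le_true _
    obtain ⟨e, he⟩ := h1
    have : wt 1 x = 0 := by
      unfold wt
      apply Finset.prod_eq_zero (Finset.mem_univ e)
      simp [he]
    simp [this]

open Classical in
/-- From the differential inequality to the threshold width. -/
theorem width_le {n r : ℕ} (P : Set (Hyper n r)) (hup : IsUpperSet P) (hne : P.Nonempty)
    (hnu : P ≠ Set.univ) (c : ℝ) (hc : 0 < c)
    (hineq : ∀ p : ℝ, 0 < p → p < 1 → c * (mu p P * (1 - mu p P)) ≤
      ∑ e : Edge n r, ex p (fun x => P.indicator (fun _ => (1 : ℝ)) (Function.update x e true) -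
        P.indicator (fun _ => (1 : ℝ)) (Function.update x e false)))
    (ε : ℝ) (hε : 0 < ε) (hε2 : ε < 1 / 2) :
    width ε P ≤ (2 / c) * Real.log ((1 - ε) / ε) := by
  -- derivative of mu
  have hder : ∀ p : ℝ, HasDerivAt (fun p => mu p P)
      (∑ e : Edge n r, ex p (fun x => P.indicator (fun _ => (1 : ℝ)) (Function.update x e true) -
        P.indicator (fun _ => (1 : ℝ)) (Function.update x e false))) p := by
    intro p
    have h := hasDerivAt_ex (fun x => P.indicator (fun _ => (1 : ℝ)) x) p
    have h2 : (fun p => mu p P) = (fun p => ex p (fun x => P.indicator (fun _ => (1 : ℝ)) x)) := by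
      funext q; exact mu_eq_ex P q
    rw [h2]; exact h
  have hcont : Continuous (fun p => mu p P) :=
    continuous_iff_continuousAt.2 (fun p => (hder p).continuousAt)
  have hmono : MonotoneOn (fun p => mu p P) (Set.Icc 0 1) := by
    apply monotoneOn_of_deriv_nonneg (convex_Icc 0 1) hcont.continuousOn
    · intro p _; exact (hder p).differentiableAt.differentiableWithinAt
    · intro p hp
      rw [interior_Icc] at hp
      rw [(hder p).deriv]
      refine le_trans ?_ (hineq p hp.1 hp.2)
      have h0 := mu_nonneg' P hp.1.le hp.2.le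
      have h1 := mu_le_one' P hp.1.le hp.2.le
      have : 0 ≤ 1 - mu p P := by linarith
      positivity
  -- the critical points
  have hcrit : ∀ a : ℝ, 0 < a → a < 1 → 0 ≤ crit a P ∧ crit a P ≤ 1 ∧ mu (crit a P) P = a := by
    intro a ha0 ha1
    set S : Set ℝ := {p : ℝ | 0 ≤ p ∧ p ≤ 1 ∧ a ≤ mu p P} with hS
    have hSne : S.Nonempty := ⟨1, zero_le_one, le_refl 1, by rw [mu_one' P hup hne]; exact ha1.le⟩
    have hSbdd : BddBelow S := ⟨0, fun p hp => hp.1⟩
    have hSclosed : IsClosed S := by
      have : S = Set.Icc 0 1 ∩ {p | a ≤ mu p P} := by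
        ext p; simp [hS, Set.mem_Icc, and_assoc]
      rw [this]
      exact isClosed_Icc.inter (isClosed_le continuous_const hcont)
    have hmem : sInf S ∈ S := hSclosed.csInf_mem hSne hSbdd
    refine ⟨hmem.1, hmem.2.1, le_antisymm ?_ hmem.2.2⟩
    -- mu (crit) ≤ a by continuity
    by_contra hcon
    push Not at hcon
    change a < mu (sInf S) P at hcon
    have hpos : 0 < sInf S := by
      rcases hmem.1.lt_or_eq with h | h
      · exact h
      · exfalso
        have h2 := hmem.2.2
        rw [← h, mu_zero' P hup hnu] at h2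
        linarith
    have hopen : ∀ᶠ p in nhds (sInf S), a < mu p P :=
      hcont.continuousAt.eventually (lt_mem_nhds hcon)
    obtain ⟨δ, hδ, hball⟩ := Metric.eventually_nhds_iff.1 hopen
    set q := max 0 (sInf S - δ / 2) with hq
    have hq1 : q < sInf S := by
      rw [hq]; apply max_lt hpos; linarith
    have hq2 : dist q (sInf S) < δ := by
      rw [Real.dist_eq, abs_sub_comm, abs_of_pos (by linarith)]
      have : sInf S - δ / 2 ≤ q := le_max_right _ _
      linarith
    have hqS : q ∈ S := by
      refine ⟨le_max_left _ _, ?_, (hball hq2).le⟩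
      have := hmem.2.1
      linarith
    have := csInf_le hSbdd hqS
    linarith
  have hε1 : ε < 1 := by linarith
  obtain ⟨h00, h01, h0m⟩ := hcrit ε hε hε1
  obtain ⟨h10, h11, h1m⟩ := hcrit (1 - ε) (by linarith) (by linarith)
  unfold width
  set p0 := crit ε P with hp0
  set p1 := crit (1 - ε) P with hp1
  have hlogpos : 0 < Real.log ((1 - ε) / ε) := by
    apply Real.log_pos
    rw [lt_div_iff₀ hε]; linarith
  rcases le_total p1 p0 with hle | hle
  · have : 0 ≤ (2 / c) * Real.log ((1 - ε) / ε) := by positivity
    linarith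
  -- on [p0, p1] the function mu is between ε and 1 - ε
  have hbd : ∀ p ∈ Set.Icc p0 p1, ε ≤ mu p P ∧ mu p P ≤ 1 - ε := by
    intro p hp
    constructor
    · rw [← h0m]
      exact hmono ⟨h00, h01⟩ ⟨h00.trans hp.1, hp.2.trans h11⟩ hp.1
    · rw [← h1m]
      exact hmono ⟨h00.trans hp.1, hp.2.trans h11⟩ ⟨h10, h11⟩ hp.2
  have hLder : ∀ p ∈ Set.Icc p0 p1, HasDerivAt (fun p => Real.log (mu p P) - Real.log (1 - mu p P))
      ((∑ e : Edge n r, ex p (fun x => P.indicator (fun _ => (1 : ℝ)) (Function.update x e true) -
        P.indicator (fun _ => (1 : ℝ)) (Function.update x e false))) / mu p P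
        - (-(∑ e : Edge n r, ex p (fun x => P.indicator (fun _ => (1 : ℝ))
          (Function.update x e true) -
        P.indicator (fun _ => (1 : ℝ)) (Function.update x e false)))) / (1 - mu p P)) p := by
    intro p hp
    obtain ⟨hb1, hb2⟩ := hbd p hp
    apply HasDerivAt.sub
    · exact (hder p).log (by linarith)
    · exact ((hder p).const_sub 1).log (by linarith)
  have key := Convex.mul_sub_le_image_sub_of_le_deriv (convex_Icc p0 p1)
    (f := fun p => Real.log (mu p P) - Real.log (1 - mu p P))
    (fun p hp => (hLder p hp).continuousAt.continuousWithinAt)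
    (fun p hp => (hLder p (interior_subset hp)).differentiableAt.differentiableWithinAt)
    (C := c)
    (by
      intro p hp
      have hp' := interior_subset hp
      rw [(hLder p hp').deriv]
      rw [interior_Icc] at hp
      obtain ⟨hb1, hb2⟩ := hbd p hp'
      have hin := hineq p (lt_of_le_of_lt h00 hp.1) (lt_of_lt_of_le hp.2 h11)
      have hm0 : 0 < mu p P := by linarith
      have hm1 : 0 < 1 - mu p P := by linarith
      set D := (∑ e : Edge n r, ex p (fun x => P.indicator (fun _ => (1 : ℝ))
          (Function.update x e true) -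
        P.indicator (fun _ => (1 : ℝ)) (Function.update x e false))) with hD
      have : D / mu p P - -D / (1 - mu p P) = D / (mu p P * (1 - mu p P)) := by
        field_simp
        ring
      rw [this, le_div_iff₀ (mul_pos hm0 hm1)]
      exact hin)
    p0 (Set.left_mem_Icc.2 hle) p1 (Set.right_mem_Icc.2 hle) hle
  simp only [h0m, h1m] at key
  have h5 : Real.log (1 - ε) - Real.log (1 - (1 - ε)) - (Real.log ε - Real.log (1 - ε)) =
      2 * Real.log ((1 - ε) / ε) := by
    rw [Real.log_div (by linarith) (by linarith)]
    have : 1 - (1 - ε) = ε := by ring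
    rw [this]; ring
  rw [h5] at key
  have h6 : (2 / c) * Real.log ((1 - ε) / ε) = (2 * Real.log ((1 - ε) / ε)) / c := by ring
  rw [h6, le_div_iff₀ hc]
  linarith

end width

end P063
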