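import Vale.Agent.P063.Vertex
import Vale.Agent.P063.Width
import Vale.Agent.P063.Param

/-!
# P063: final assembly (modulo the 4-norm inequality `Bon`)
-/

namespace P063

open Finset

set_option linter.unusedSectionVars false
set_option linter.unusedVariables false

open Classical in
theorem width_final {n r : ℕ} (hr : 2 ≤ r) (hn : r ≤ n)
    (bon : ∀ p : ℝ, 0 < p → p < 1 → Bon (Edge n r) p)
    (P : Set (Hyper n r)) (hP : IsProperty P) (hup : IsUpperSet P)
    (hne : P.Nonempty) (hnu : P ≠ Set.univ) (ε : ℝ) (hε : 0 < ε) (hε2 : ε < 1 / 2) :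
    width ε P ≤ 6272 * r * Real.log (1 / ε) *
      (Real.log n) ^ (-((r : ℝ) / ((r : ℝ) - 1))) := by
  set ρ : ℝ := (r : ℝ) / ((r : ℝ) - 1) with hρ
  have hr' : (2 : ℝ) ≤ r := by exact_mod_cast hr
  have hn2 : (2 : ℝ) ≤ n := by exact_mod_cast hr.trans hn
  have hL : 0 < Real.log n := Real.log_pos (by linarith)
  have hLρ : 0 < (Real.log n) ^ (-ρ) := Real.rpow_pos_of_pos hL _
  set c : ℝ := 1 / (3136 * r * (Real.log n) ^ (-ρ)) with hc
  have hcpos : 0 < c := by positivity
  set f : Hyper n r → ℝ := P.indicator (fun _ => (1 : ℝ)) with hf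
  have hf01 : ∀ x, f x = 0 ∨ f x = 1 := by
    intro x
    by_cases hx : x ∈ P
    · right; rw [hf, Set.indicator_of_mem hx]
    · left; rw [hf, Set.indicator_of_notMem hx]
  have hinv : ∀ (π : Equiv.Perm (Fin n)) (x : Hyper n r), f (x ∘ edgePerm π) = f x := by
    intro π x
    have h := hP π x
    have h2 : x ∘ edgePerm π = fun e => x (mapEdge π e) := rfl
    rw [h2]
    by_cases hx : x ∈ P
    · rw [hf, Set.indicator_of_mem hx, Set.indicator_of_mem (h.2 hx)]
    · rw [hf, Set.indicator_of_notMem hx, Set.indicator_of_notMem (fun h' => hx (h.1 h'))]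
  have hineq : ∀ p : ℝ, 0 < p → p < 1 → c * (mu p P * (1 - mu p P)) ≤
      ∑ e : Edge n r, ex p (fun x => P.indicator (fun _ => (1 : ℝ)) (Function.update x e true) -
        P.indicator (fun _ => (1 : ℝ)) (Function.update x e false)) := by
    intro p hp0 hp1
    obtain ⟨k, d, lam, hk, hlam, hm, hR⟩ := param n r hr hn p hp0 hp1
    have h1 := influence_ineq hr (bon p hp0 hp1) hp0 hp1 f hf01 hinv k d hk lam hlam hm
    have h2 := tinf_le hp0 hp1 f
    have hdd : ∀ (e : Edge n r) (x : Hyper n r), dd e f x ^ 2 = dd e f x := by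
      intro e x
      have hmono : f (Function.update x e false) ≤ f (Function.update x e true) := by
        by_cases hx : Function.update x e false ∈ P
        · have hle : Function.update x e false ≤ Function.update x e true := by
            rw [update_le_update_iff]
            exact ⟨Bool.false_le _, fun _ _ => le_refl _⟩
          have hx' := hup hle hx
          rw [hf, Set.indicator_of_mem hx, Set.indicator_of_mem hx']
        · rw [hf, Set.indicator_of_notMem hx]
          rcases hf01 (Function.update x e true) with h | h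
          · rw [← hf, h]
          · rw [← hf, h]; norm_num
      unfold dd
      rcases hf01 (Function.update x e false) with h | h <;>
        rcases hf01 (Function.update x e true) with h' | h' <;> rw [h, h'] at hmono ⊢
      · norm_num
      · norm_num
      · norm_num at hmono
      · norm_num
    have h3 : ∑ e : Edge n r, ex p (fun x => dd e f x ^ 2) = ∑ e : Edge n r, ex p (dd e f) := by
      refine sum_congr rfl fun e _ => ?_
      congr 1
      ext x
      exact hdd e x
    rw [h3] at h2
    have hmu : mu p P = ex p f := mu_eq_ex P p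
    change c * (mu p P * (1 - mu p P)) ≤ ∑ e : Edge n r, ex p (dd e f)
    rw [hmu]
    set D : ℝ := ∑ e : Edge n r, ex p (dd e f) with hD
    have hDnn : 0 ≤ D := by
      refine sum_nonneg fun e _ => ex_nonneg hp0.le hp1.le fun x => ?_
      rw [← hdd e x]; exact sq_nonneg _
    set R : ℝ := 2 * r / k + 8 * r * lam + r / ((d : ℝ) + 1) ^ ρ with hRdef
    have hRnn : 0 ≤ R := by positivity
    have h4 : ex p f * (1 - ex p f) ≤ D * (3136 * r * (Real.log n) ^ (-ρ)) := by
      calc ex p f * (1 - ex p f) ≤ tinf p f * R := h1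
        _ ≤ (p * (1 - p) * D) * R := mul_le_mul_of_nonneg_right h2 hRnn
        _ = D * (p * (1 - p) * R) := by ring
        _ ≤ D * (3136 * r * (Real.log n) ^ (-ρ)) := mul_le_mul_of_nonneg_left hR hDnn
    rw [hc, one_div, ← div_eq_inv_mul, div_le_iff₀ (by positivity)]
    exact h4
  have h := width_le P hup hne hnu c hcpos hineq ε hε hε2
  refine h.trans ?_
  have h5 : 2 / c = 6272 * r * (Real.log n) ^ (-ρ) := by
    rw [hc]; field_simp; norm_num
  rw [h5]
  have h6 : Real.log ((1 - ε) / ε) ≤ Real.log (1 / ε) := by
    apply Real.log_le_log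
    · exact div_pos (by linarith) hε
    · exact div_le_div_of_nonneg_right (by linarith) hε.le
  calc 6272 * r * (Real.log n) ^ (-ρ) * Real.log ((1 - ε) / ε)
      ≤ 6272 * r * (Real.log n) ^ (-ρ) * Real.log (1 / ε) :=
        mul_le_mul_of_nonneg_left h6 (by positivity)
    _ = _ := by ring

end P063
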