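import Vale.Agent.P063.Defs

/-!
# P063: elementary analysis on the `p`-biased cube
-/

namespace P063

open Finset

set_option linter.unusedSectionVars false
set_option linter.unusedVariables false

variable {ι : Type*} [Fintype ι] [DecidableEq ι]

/-! ### expectation -/

lemma wt_nonneg {p : ℝ} (hp0 : 0 ≤ p) (hp1 : p ≤ 1) (x : ι → Bool) : 0 ≤ wt p x := by
  unfold wt
  refine prod_nonneg fun e _ => ?_
  split_ifs <;> linarith

lemma ex_prod (p : ℝ) (ψ : ι → Bool → ℝ) :
    ex p (fun x => ∏ e, ψ e (x e)) = ∏ e, (p * ψ e true + (1 - p) * ψ e false) := by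
  unfold ex wt
  simp_rw [← prod_mul_distrib]
  have h := Finset.prod_univ_sum (fun _ : ι => (Finset.univ : Finset Bool))
    (fun e b => (if b = true then p else 1 - p) * ψ e b)
  rw [Fintype.piFinset_univ] at h
  rw [← h]
  refine prod_congr rfl fun e _ => ?_
  simp

lemma ex_const (p : ℝ) (c : ℝ) : ex p (fun _ : ι → Bool => c) = c := by
  have h := ex_prod (ι := ι) p (fun _ _ => 1)
  simp only [prod_const_one, mul_one] at h
  have h1 : (∏ _e : ι, (p + (1 - p))) = 1 := by simp
  rw [h1] at h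
  unfold ex at h ⊢
  simp only [mul_one] at h
  rw [← sum_mul, h, one_mul]

lemma ex_add (p : ℝ) (f g : (ι → Bool) → ℝ) : ex p (fun x => f x + g x) = ex p f + ex p g := by
  unfold ex; rw [← sum_add_distrib]; exact sum_congr rfl fun x _ => by ring

lemma ex_sub (p : ℝ) (f g : (ι → Bool) → ℝ) : ex p (fun x => f x - g x) = ex p f - ex p g := by
  unfold ex; rw [← sum_sub_distrib]; exact sum_congr rfl fun x _ => by ring

lemma ex_const_mul (p c : ℝ) (f : (ι → Bool) → ℝ) : ex p (fun x => c * f x) = c * ex p f := by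
  unfold ex; rw [mul_sum]; exact sum_congr rfl fun x _ => by ring

lemma ex_mul_const (p c : ℝ) (f : (ι → Bool) → ℝ) : ex p (fun x => f x * c) = ex p f * c := by
  unfold ex; rw [sum_mul]; exact sum_congr rfl fun x _ => by ring

lemma ex_sum (p : ℝ) {κ : Type*} (s : Finset κ) (f : κ → (ι → Bool) → ℝ) :
    ex p (fun x => ∑ i ∈ s, f i x) = ∑ i ∈ s, ex p (f i) := by
  unfold ex
  simp_rw [mul_sum]
  rw [sum_comm]

lemma ex_mono {p : ℝ} (hp0 : 0 ≤ p) (hp1 : p ≤ 1) {f g : (ι → Bool) → ℝ} (h : ∀ x, f x ≤ g x) :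
    ex p f ≤ ex p g :=
  sum_le_sum fun x _ => mul_le_mul_of_nonneg_left (h x) (wt_nonneg hp0 hp1 x)

lemma ex_nonneg {p : ℝ} (hp0 : 0 ≤ p) (hp1 : p ≤ 1) {f : (ι → Bool) → ℝ} (h : ∀ x, 0 ≤ f x) :
    0 ≤ ex p f :=
  sum_nonneg fun x _ => mul_nonneg (wt_nonneg hp0 hp1 x) (h x)

lemma ex_abs_le {p : ℝ} (hp0 : 0 ≤ p) (hp1 : p ≤ 1) (f : (ι → Bool) → ℝ) :
    ex p f ≤ ex p (fun x => |f x|) :=
  ex_mono hp0 hp1 fun x => le_abs_self _

/-- invariance of the expectation under permutation of coordinates -/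
lemma ex_comp_perm (p : ℝ) (σ : Equiv.Perm ι) (f : (ι → Bool) → ℝ) :
    ex p (fun x => f (x ∘ σ)) = ex p f := by
  unfold ex
  rw [← (Equiv.arrowCongr σ.symm (Equiv.refl Bool)).sum_comp (fun x => wt p x * f x)]
  refine sum_congr rfl fun x _ => ?_
  have h1 : (Equiv.arrowCongr σ.symm (Equiv.refl Bool)) x = x ∘ σ := by
    ext e; simp [Equiv.arrowCongr]
  rw [h1]
  congr 1
  unfold wt
  exact (Equiv.prod_comp σ (fun e => if x e = true then p else 1 - p)).symm

/-! ### the swap lemma -/

/-- swapping the coordinates in `J` of two points -/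
def swapEquiv (J : Finset ι) : ((ι → Bool) × (ι → Bool)) ≃ ((ι → Bool) × (ι → Bool)) where
  toFun z := (J.piecewise z.2 z.1, J.piecewise z.1 z.2)
  invFun z := (J.piecewise z.2 z.1, J.piecewise z.1 z.2)
  left_inv z := by
    rcases z with ⟨x, y⟩
    ext e <;> by_cases he : e ∈ J <;> simp [Finset.piecewise, he]
  right_inv z := by
    rcases z with ⟨x, y⟩
    ext e <;> by_cases he : e ∈ J <;> simp [Finset.piecewise, he]

lemma wt_swap (p : ℝ) (J : Finset ι) (x y : ι → Bool) :
    wt p (J.piecewise y x) * wt p (J.piecewise x y) = wt p x * wt p y := by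
  unfold wt
  rw [← prod_mul_distrib, ← prod_mul_distrib]
  refine prod_congr rfl fun e _ => ?_
  by_cases he : e ∈ J
  · simp only [Finset.piecewise_eq_of_mem _ _ _ he]; ring
  · simp only [Finset.piecewise_eq_of_notMem _ _ _ he]

lemma ex_swap (p : ℝ) (J : Finset ι) (F : (ι → Bool) → (ι → Bool) → ℝ) :
    ex p (fun x => ex p (fun y => F (J.piecewise y x) (J.piecewise x y))) =
      ex p (fun x => ex p (fun y => F x y)) := by
  unfold ex
  simp_rw [mul_sum]
  rw [← Fintype.sum_prod_type', ← Fintype.sum_prod_type']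
  rw [← (swapEquiv J).sum_comp (fun z : (ι → Bool) × (ι → Bool) => wt p z.1 * (wt p z.2 * F z.1 z.2))]
  refine sum_congr rfl fun z _ => ?_
  rcases z with ⟨x, y⟩
  change wt p x * (wt p y * _) = wt p (J.piecewise y x) * (wt p (J.piecewise x y) * _)
  rw [← mul_assoc, ← mul_assoc, wt_swap]
  rfl

lemma ex_resample (p : ℝ) (J : Finset ι) (F : (ι → Bool) → ℝ) :
    ex p (fun x => ex p (fun y => F (J.piecewise y x))) = ex p F := by
  have h := ex_swap p J (fun x _ => F x)
  rw [h]
  congr 1
  ext x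
  exact ex_const p _

lemma ex_indep (p : ℝ) (J : Finset ι) (G H : (ι → Bool) → ℝ)
    (hG : ∀ x y, G (J.piecewise y x) = G x) (hH : ∀ x y, H (J.piecewise x y) = H x) :
    ex p (fun x => G x * H x) = ex p G * ex p H := by
  have h := ex_swap p J (fun x y => G x * H y)
  simp only [hG, hH] at h
  have h1 : ex p (fun x : ι → Bool => ex p (fun _y : ι → Bool => G x * H x)) =
      ex p (fun x => G x * H x) := by
    congr 1; ext x; exact ex_const p _
  rw [h1] at h
  rw [h]
  simp_rw [ex_const_mul]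
  rw [ex_mul_const]

/-! ### characters -/

section char

variable {p : ℝ}

lemma phi_mean (hp0 : 0 < p) (hp1 : p < 1) : p * phi p true + (1 - p) * phi p false = 0 := by
  unfold phi
  simp only [if_true, Bool.false_eq_true, if_false]
  field_simp
  ring

lemma phi_sq (hp0 : 0 < p) (hp1 : p < 1) :
    p * (phi p true * phi p true) + (1 - p) * (phi p false * phi p false) = 1 := by
  unfold phi
  simp only [if_true, Bool.false_eq_true, if_false]
  have hq : 0 < p * (1 - p) := mul_pos hp0 (by linarith)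
  have hs : Real.sqrt (p * (1 - p)) * Real.sqrt (p * (1 - p)) = p * (1 - p) :=
    Real.mul_self_sqrt hq.le
  have h1 : (1 - p) ≠ 0 := by linarith
  rw [div_mul_div_comm, div_mul_div_comm, hs]
  field_simp
  ring

lemma one_add_phi (hp0 : 0 < p) (hp1 : p < 1) (a b : Bool) :
    1 + phi p a * phi p b = if a = b then 1 / (if a then p else 1 - p) else 0 := by
  have hq : 0 < p * (1 - p) := mul_pos hp0 (by linarith)
  have hs : Real.sqrt (p * (1 - p)) * Real.sqrt (p * (1 - p)) = p * (1 - p) :=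
    Real.mul_self_sqrt hq.le
  have h1 : (1 - p) ≠ 0 := by linarith
  have h0 : p ≠ 0 := hp0.ne'
  unfold phi
  cases a <;> cases b <;> simp only [Bool.false_eq_true, if_false, if_true, Bool.true_eq_false,
    div_mul_div_comm, hs] <;> field_simp <;> ring

lemma chi_empty (x : ι → Bool) : chi p ∅ x = 1 := by simp [chi]

lemma chi_union {S T : Finset ι} (h : Disjoint S T) (x : ι → Bool) :
    chi p (S ∪ T) x = chi p S x * chi p T x := by
  unfold chi; rw [prod_union h]

lemma chi_congr {S : Finset ι} {x y : ι → Bool} (h : ∀ e ∈ S, x e = y e) :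
    chi p S x = chi p S y := by
  unfold chi; exact prod_congr rfl fun e he => by rw [h e he]

lemma ex_chi (hp0 : 0 < p) (hp1 : p < 1) (S : Finset ι) :
    ex p (chi p S) = if S = ∅ then 1 else 0 := by
  have h := ex_prod p (fun (e : ι) b => if e ∈ S then phi p b else 1)
  have h1 : (fun x : ι → Bool => ∏ e, (if e ∈ S then phi p (x e) else 1)) = chi p S := by
    ext x
    unfold chi
    rw [prod_ite_mem, univ_inter]
  rw [h1] at h
  rw [h]
  split_ifs with hS
  · subst hS; simp
  · obtain ⟨e, he⟩ := nonempty_iff_ne_empty.2 hS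
    refine prod_eq_zero (mem_univ e) ?_
    rw [if_pos he, if_pos he, phi_mean hp0 hp1]

lemma fc_empty (f : (ι → Bool) → ℝ) : fc p f ∅ = ex p f := by
  unfold fc; simp [chi_empty]

/-- the reproducing kernel -/
lemma sum_chi_mul (hp0 : 0 < p) (hp1 : p < 1) (x y : ι → Bool) :
    ∑ S : Finset ι, chi p S x * chi p S y = if x = y then 1 / wt p x else 0 := by
  have h : ∀ S : Finset ι, chi p S x * chi p S y = ∏ e ∈ S, (phi p (x e) * phi p (y e)) := by
    intro S; unfold chi; rw [prod_mul_distrib]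
  simp_rw [h]
  rw [← powerset_univ, ← prod_one_add]
  simp_rw [one_add_phi hp0 hp1]
  split_ifs with hxy
  · subst hxy
    simp only [if_true]
    unfold wt
    rw [prod_div_distrib, prod_const_one]
  · obtain ⟨e, he⟩ := Function.ne_iff.1 hxy
    exact prod_eq_zero (mem_univ e) (if_neg he)

lemma wt_pos (hp0 : 0 < p) (hp1 : p < 1) (x : ι → Bool) : 0 < wt p x := by
  unfold wt
  refine prod_pos fun e _ => ?_
  split_ifs <;> linarith

/-- Parseval -/
lemma parseval (hp0 : 0 < p) (hp1 : p < 1) (f g : (ι → Bool) → ℝ) :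
    ∑ S : Finset ι, fc p f S * fc p g S = ex p (fun x => f x * g x) := by
  unfold fc ex
  simp_rw [sum_mul_sum]
  rw [sum_comm]
  have : ∀ x : ι → Bool, (∑ S : Finset ι, ∑ y : ι → Bool,
      wt p x * (f x * chi p S x) * (wt p y * (g y * chi p S y))) = wt p x * (f x * g x) := by
    intro x
    rw [sum_comm]
    have h2 : ∀ y : ι → Bool, (∑ S : Finset ι,
      wt p x * (f x * chi p S x) * (wt p y * (g y * chi p S y))) =
        wt p x * f x * (wt p y * g y) * (if x = y then 1 / wt p x else 0) := by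
      intro y
      rw [← sum_chi_mul hp0 hp1, mul_sum]
      exact sum_congr rfl fun S _ => by ring
    simp_rw [h2]
    simp only [mul_ite, mul_zero, sum_ite_eq, mem_univ, if_true]
    have := (wt_pos hp0 hp1 x).ne'
    field_simp
  simp_rw [this]

lemma parseval_sq (hp0 : 0 < p) (hp1 : p < 1) (f : (ι → Bool) → ℝ) :
    ∑ S : Finset ι, fc p f S ^ 2 = ex p (fun x => f x ^ 2) := by
  have := parseval hp0 hp1 f f
  simpa [sq] using this

lemma bessel (hp0 : 0 < p) (hp1 : p < 1) (f : (ι → Bool) → ℝ) (𝒜 : Finset (Finset ι)) :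
    ∑ S ∈ 𝒜, fc p f S ^ 2 ≤ ex p (fun x => f x ^ 2) := by
  rw [← parseval_sq hp0 hp1]
  exact sum_le_sum_of_subset_of_nonneg (subset_univ _) (fun _ _ _ => sq_nonneg _)

end char

end P063
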