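import Vale.Agent.P063.Statement

/-!
# P063: definitions for the second hand-in (maximal width, total influence)
-/

namespace P063

/-- The set of the threshold widths of all nontrivial increasing `r`-uniform hypergraph properties
on `n` vertices. -/
def widths (ε : ℝ) (n r : ℕ) : Set ℝ :=
  {w : ℝ | ∃ P : Set (Hyper n r), IsProperty P ∧ IsUpperSet P ∧ P.Nonempty ∧ P ≠ Set.univ ∧
    w = width ε P}

/-- The maximal threshold width `W_ε(n)` (for `r`-uniform hypergraph properties). -/
noncomputable def maxWidth (ε : ℝ) (n r : ℕ) : ℝ := sSup (widths ε n r)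

/-- The total influence `I_p(P) = ∑_e Pr_p (f(x_{e←1}) ≠ f(x_{e←0}))` of the indicator `f`
of `P`. -/
noncomputable def infl {n r : ℕ} (p : ℝ) (P : Set (Hyper n r)) : ℝ :=
  ∑ e : Edge n r, mu p {x | ¬ (Function.update x e true ∈ P ↔ Function.update x e false ∈ P)}

end P063
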