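import Vale.Agent.P063.Final
import Vale.Agent.P063.Bonami
import Vale.Agent.P063.Order

/-!
# P063: influence inequality for all (not necessarily increasing) properties (helper5)
-/

namespace P063

open Finset

theorem infl_ineq {n r : ℕ} (hr : 2 ≤ r) (hn : r ≤ n) (P : Set (Hyper n r)) (hP : IsProperty P)
    (p : ℝ) (hp0 : 0 < p) (hp1 : p < 1) :
    mu p P * (1 - mu p P) ≤
      3136 * r * (Real.log n) ^ (-((r : ℝ) / ((r : ℝ) - 1))) * infl p P := by
  have hr' : (2 : ℝ) ≤ r := by exact_mod_cast hr
  have hr1 : 0 < (r : ℝ) - 1 := by linarith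
  set ρ : ℝ := (r : ℝ) / ((r : ℝ) - 1) with hρ
  set f : Hyper n r → ℝ := P.indicator (fun _ => (1 : ℝ)) with hf
  have hf01 : ∀ x, f x = 0 ∨ f x = 1 := by
    intro x
    by_cases hx : x ∈ P
    · right; rw [hf, Set.indicator_of_mem hx]
    · left; rw [hf, Set.indicator_of_notMem hx]
  have hinv : ∀ (π : Equiv.Perm (Fin n)) (x : Hyper n r), f (x ∘ edgePerm π) = f x := by
    intro π x
    have h := hP π x
    have h2 : x ∘ edgePerm π = fun e => x (mapEdge π e) := rfl
    rw [h2]
    by_cases hx : x ∈ P
    · rw [hf, Set.indicator_of_mem hx, Set.indicator_of_mem (h.2 hx)]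
    · rw [hf, Set.indicator_of_notMem hx, Set.indicator_of_notMem (fun h' => hx (h.1 h'))]
  obtain ⟨k, d, lam, hk, hlam, hm, hR⟩ := param n r hr hn p hp0 hp1
  have h1 := influence_ineq hr (fun d 𝒜 h𝒜 c => bonami p hp0 hp1 d 𝒜 h𝒜 c) hp0 hp1 f hf01 hinv
    k d hk lam hlam hm
  have h2 := tinf_le hp0 hp1 f
  have h3 : ∑ e : Edge n r, ex p (fun x => dd e f x ^ 2) = infl p P := by
    unfold infl
    refine sum_congr rfl fun e _ => ?_
    rw [mu_eq_ex]
    congr 1
    funext x
    unfold dd
    by_cases ha : Function.update x e true ∈ P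
    · by_cases hb : Function.update x e false ∈ P
      · rw [hf, Set.indicator_of_mem ha, Set.indicator_of_mem hb,
          Set.indicator_of_notMem (by simp [ha, hb])]
        norm_num
      · rw [hf, Set.indicator_of_mem ha, Set.indicator_of_notMem hb,
          Set.indicator_of_mem (by simp [ha, hb])]
        norm_num
    · by_cases hb : Function.update x e false ∈ P
      · rw [hf, Set.indicator_of_notMem ha, Set.indicator_of_mem hb,
          Set.indicator_of_mem (by simp [ha, hb])]
        norm_num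
      · rw [hf, Set.indicator_of_notMem ha, Set.indicator_of_notMem hb,
          Set.indicator_of_notMem (by simp [ha, hb])]
        norm_num
  rw [h3] at h2
  have hmu : mu p P = ex p f := mu_eq_ex P p
  rw [hmu]
  have hDnn : 0 ≤ infl p P := by
    rw [← h3]
    refine sum_nonneg fun e _ => ex_nonneg hp0.le hp1.le fun x => sq_nonneg _
  set R : ℝ := 2 * r / k + 8 * r * lam + r / ((d : ℝ) + 1) ^ ρ with hRdef
  have hRnn : 0 ≤ R := by positivity
  calc ex p f * (1 - ex p f) ≤ tinf p f * R := h1
    _ ≤ (p * (1 - p) * infl p P) * R := mul_le_mul_of_nonneg_right h2 hRnn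
    _ = infl p P * (p * (1 - p) * R) := by ring
    _ ≤ infl p P * (3136 * r * (Real.log n) ^ (-ρ)) := mul_le_mul_of_nonneg_left hR hDnn
    _ = _ := by ring

end P063
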