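import Vale.Agent.P063.Defs

/-!
Interface of the two side modules (statements with `sorry`; NOT imported by the final files).
-/

namespace P063

open Finset

/-- (M1) Bonami.lean : 4-norm hypercontractivity for low degree polynomials on the p-biased cube.
Proof idea: induction over the coordinates. `f = g + φ_e h`, `E φ = 0`, `E φ² = 1`,
`κ₃ = E φ³`, `κ₃² ≤ 1/q`, `κ₄ = E φ⁴ ≤ 1/q`, `q = p(1-p)`:
`E f⁴ = E g⁴ + 6 E g²h² + 4 κ₃ E g h³ + κ₄ E h⁴ ≤ E g⁴ + 8 E g²h² + (κ₄+2κ₃²) E h⁴`,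
`E g²h² ≤ √(E g⁴ E h⁴)`, `B = 4/q ≥ 16`, `κ₄+2κ₃² ≤ 3/q ≤ B`. -/
theorem bonami_stmt {ι : Type*} [Fintype ι] [DecidableEq ι] (p : ℝ) (hp0 : 0 < p) (hp1 : p < 1)
    (d : ℕ) (𝒜 : Finset (Finset ι)) (h𝒜 : ∀ A ∈ 𝒜, A.card ≤ d) (c : Finset ι → ℝ) :
    ex p (fun x => (∑ A ∈ 𝒜, c A * chi p A x) ^ 4) ≤
      (4 / (p * (1 - p))) ^ d * (∑ A ∈ 𝒜, c A ^ 2) ^ 2 := sorry

/-- (M2) Width.lean, part 1: Russo's formula -/
theorem hasDerivAt_ex_stmt {ι : Type*} [Fintype ι] [DecidableEq ι] (f : (ι → Bool) → ℝ) (p : ℝ) :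
    HasDerivAt (fun p => ex p f)
      (∑ e : ι, ex p (fun x => f (Function.update x e true) - f (Function.update x e false))) p :=
  sorry

open Classical in
/-- (M2) Width.lean, part 2: from the differential inequality to the threshold width. -/
theorem width_le_stmt {n r : ℕ} (P : Set (Hyper n r)) (hup : IsUpperSet P) (hne : P.Nonempty)
    (hnu : P ≠ Set.univ) (c : ℝ) (hc : 0 < c)
    (hineq : ∀ p : ℝ, 0 < p → p < 1 → c * (mu p P * (1 - mu p P)) ≤
      ∑ e : Edge n r, ex p (fun x => P.indicator (fun _ => (1 : ℝ)) (Function.update x e true) -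
        P.indicator (fun _ => (1 : ℝ)) (Function.update x e false)))
    (ε : ℝ) (hε : 0 < ε) (hε2 : ε < 1 / 2) :
    width ε P ≤ (2 / c) * Real.log ((1 - ε) / ε) := sorry

end P063
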