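import Vale.Agent.P063.Fourier

/-!
# P063: the key inequality
-/

namespace P063

open Finset

set_option linter.unusedSectionVars false
set_option linter.unusedVariables false

variable {ι : Type*} [Fintype ι] [DecidableEq ι] {p : ℝ}

lemma pw_pw (J : Finset ι) (x y z : ι → Bool) :
    J.piecewise y (J.piecewise z x) = J.piecewise y x := by
  ext e; by_cases he : e ∈ J <;> simp [Finset.piecewise, he]

/-- averaging over the coordinates in `J` -/
noncomputable def avg (p : ℝ) (J : Finset ι) (f : (ι → Bool) → ℝ) (x : ι → Bool) : ℝ :=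
  ex p (fun y => f (J.piecewise y x))

lemma avg_inv (J T : Finset ι) (hT : T ⊆ J) (f : (ι → Bool) → ℝ) (x y : ι → Bool) :
    avg p J f (T.piecewise y x) = avg p J f x := by
  unfold avg
  congr 1
  ext z
  congr 1
  ext e
  by_cases he : e ∈ J
  · simp [Finset.piecewise, he]
  · have : e ∉ T := fun h => he (hT h)
    simp [Finset.piecewise, he, this]

lemma chi_pw_mem {S J : Finset ι} (h : S ⊆ J) (x y : ι → Bool) :
    chi p S (J.piecewise y x) = chi p S y :=
  chi_congr fun e he => Finset.piecewise_eq_of_mem _ _ _ (h he)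

lemma chi_pw_notMem {S J : Finset ι} (h : Disjoint S J) (x y : ι → Bool) :
    chi p S (J.piecewise y x) = chi p S x :=
  chi_congr fun e he => Finset.piecewise_eq_of_notMem _ _ _ (fun h' => (disjoint_left.1 h) he h')

lemma fc_avg (J S : Finset ι) (h : Disjoint S J) (f : (ι → Bool) → ℝ) :
    fc p (avg p J f) S = fc p f S := by
  unfold fc
  rw [← ex_resample p J (fun x => f x * chi p S x)]
  congr 1
  ext x
  unfold avg
  rw [← ex_mul_const]
  congr 1
  ext y
  rw [chi_pw_notMem h]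

lemma ex_mul_avg (J : Finset ι) (f : (ι → Bool) → ℝ) :
    ex p (fun x => f x * avg p J f x) = ex p (fun x => avg p J f x ^ 2) := by
  rw [← ex_resample p J (fun x => f x * avg p J f x)]
  congr 1
  ext x
  simp_rw [avg_inv J J (Subset.refl J)]
  rw [ex_mul_const, sq]
  rfl

lemma tau_le (hp0 : 0 < p) (hp1 : p < 1) (J : Finset ι) (f : (ι → Bool) → ℝ) :
    ex p (fun x => f x ^ 2) - ex p (fun x => f x * avg p J f x) ≤
      ∑ S : Finset ι with ¬ Disjoint S J, fc p f S ^ 2 := by
  rw [ex_mul_avg, ← parseval_sq hp0 hp1 f,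
    ← sum_filter_add_sum_filter_not univ (fun S : Finset ι => Disjoint S J)
      (fun S => fc p f S ^ 2)]
  have h := bessel hp0 hp1 (avg p J f) (univ.filter (fun S : Finset ι => Disjoint S J))
  have h2 : ∑ S : Finset ι with Disjoint S J, fc p (avg p J f) S ^ 2 =
      ∑ S : Finset ι with Disjoint S J, fc p f S ^ 2 := by
    refine sum_congr rfl fun S hS => ?_
    rw [fc_avg J S (mem_filter.1 hS).2]
  rw [h2] at h
  linarith

lemma ex_le_one (hp0 : 0 < p) (hp1 : p < 1) {f : (ι → Bool) → ℝ} (hf : ∀ x, f x ≤ 1) :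
    ex p f ≤ 1 := by
  have := ex_mono hp0.le hp1.le (g := fun _ => (1 : ℝ)) hf
  rwa [ex_const] at this

/-- Fourier coefficients of the sections -/
noncomputable def sec (p : ℝ) (J : Finset ι) (f : (ι → Bool) → ℝ) (A : Finset ι)
    (x : ι → Bool) : ℝ :=
  ex p (fun y => f (J.piecewise y x) * chi p A y)

lemma sec_inv (J T : Finset ι) (hT : T ⊆ J) (f : (ι → Bool) → ℝ) (A : Finset ι) (x y : ι → Bool) :
    sec p J f A (T.piecewise y x) = sec p J f A x := by
  unfold sec
  congr 1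
  ext z
  congr 2
  ext e
  by_cases he : e ∈ J
  · simp [Finset.piecewise, he]
  · have : e ∉ T := fun h => he (hT h)
    simp [Finset.piecewise, he, this]

lemma sec_perm (J : Finset ι) (f : (ι → Bool) → ℝ) (A : Finset ι) (x : ι → Bool)
    (σ : Equiv.Perm ι) (hf : ∀ x, f (x ∘ σ) = f x) (hσ : ∀ e, e ∉ J → σ e = e) :
    sec p J f (A.map σ.toEmbedding) x = sec p J f A x := by
  unfold sec
  rw [← ex_comp_perm p σ (fun y => f (J.piecewise y x) * chi p A y)]
  congr 1
  ext y
  congr 1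
  · rw [← hf]
    congr 1
    ext e
    by_cases he : e ∈ J
    · have : σ e ∈ J := by
        by_contra h
        have h1 := hσ _ h
        have h2 : σ e = e := σ.injective h1
        rw [h2] at h
        exact h he
      simp [Finset.piecewise, he, this]
    · simp [Finset.piecewise, he, hσ e he]
  · unfold chi
    rw [prod_map]
    rfl

lemma sec_bessel (hp0 : 0 < p) (hp1 : p < 1) (J : Finset ι) (f : (ι → Bool) → ℝ)
    (hf : ∀ x, f x = 0 ∨ f x = 1) (x : ι → Bool) (𝒜 : Finset (Finset ι)) :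
    ∑ A ∈ 𝒜, sec p J f A x ^ 2 ≤ 1 := by
  have h := bessel hp0 hp1 (fun y => f (J.piecewise y x)) 𝒜
  refine le_trans h (ex_le_one hp0 hp1 fun y => ?_)
  rcases hf (J.piecewise y x) with h | h <;> rw [h] <;> norm_num

/-- the family of small nonempty subsets of a star -/
def fam (s : Finset ι) (d : ℕ) : Finset (Finset ι) :=
  s.powerset.filter (fun A => 1 ≤ A.card ∧ A.card ≤ d)

lemma mem_fam {s : Finset ι} {d : ℕ} {A : Finset ι} :
    A ∈ fam s d ↔ A ⊆ s ∧ 1 ≤ A.card ∧ A.card ≤ d := by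
  unfold fam; rw [mem_filter, mem_powerset]

/-- `γ²` -/
noncomputable def gam (p : ℝ) (J : Finset ι) (f : (ι → Bool) → ℝ) (s : Finset ι) (d : ℕ)
    (x : ι → Bool) : ℝ :=
  ∑ A ∈ fam s d, sec p J f A x ^ 2

lemma gam_nonneg (J : Finset ι) (f : (ι → Bool) → ℝ) (s : Finset ι) (d : ℕ) (x : ι → Bool) :
    0 ≤ gam p J f s d x := sum_nonneg fun _ _ => sq_nonneg _

lemma gam_perm (J : Finset ι) (f : (ι → Bool) → ℝ) (s s' : Finset ι) (d : ℕ) (x : ι → Bool)
    (σ : Equiv.Perm ι) (hf : ∀ x, f (x ∘ σ) = f x) (hσ : ∀ e, e ∉ J → σ e = e)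
    (hs : ∀ e, e ∈ s ↔ σ e ∈ s') : gam p J f s' d x = gam p J f s d x := by
  unfold gam
  symm
  refine sum_bij (fun A _ => A.map σ.toEmbedding) ?_ ?_ ?_ ?_
  · intro A hA
    rw [mem_fam] at hA ⊢
    refine ⟨?_, by simpa using hA.2.1, by simpa using hA.2.2⟩
    intro e he
    rw [mem_map] at he
    obtain ⟨e', he', rfl⟩ := he
    exact (hs e').1 (hA.1 he')
  · intro A _ B _ h
    exact Finset.map_injective _ h
  · intro B hB
    rw [mem_fam] at hB
    refine ⟨B.map σ.symm.toEmbedding, ?_, ?_⟩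
    · rw [mem_fam]
      refine ⟨?_, by simpa using hB.2.1, by simpa using hB.2.2⟩
      intro e he
      rw [mem_map] at he
      obtain ⟨e', he', rfl⟩ := he
      rw [hs]
      simpa using hB.1 he'
    · ext e
      simp
  · intro A _
    rw [sec_perm J f A x σ hf hσ]

lemma gam_le (hp0 : 0 < p) (hp1 : p < 1) {κ : Type*} [DecidableEq κ] (U : Finset κ) (J : Finset ι)
    (st : κ → Finset ι) (f : (ι → Bool) → ℝ) (hf : ∀ x, f x = 0 ∨ f x = 1)
    (hdisj : ∀ u ∈ U, ∀ v ∈ U, u ≠ v → Disjoint (st u) (st v))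
    (hsym : ∀ u ∈ U, ∀ v ∈ U, ∃ σ : Equiv.Perm ι, (∀ x, f (x ∘ σ) = f x) ∧
      (∀ e, e ∉ J → σ e = e) ∧ (∀ e, e ∈ st u ↔ σ e ∈ st v)) (d : ℕ) (x : ι → Bool)
    (u : κ) (hu : u ∈ U) : (U.card : ℝ) * gam p J f (st u) d x ≤ 1 := by
  have h1 : ∀ v ∈ U, gam p J f (st v) d x = gam p J f (st u) d x := by
    intro v hv
    obtain ⟨σ, h1, h2, h3⟩ := hsym u hu v hv
    exact gam_perm J f (st u) (st v) d x σ h1 h2 h3
  have h2 : ∑ v ∈ U, gam p J f (st v) d x = (U.card : ℝ) * gam p J f (st u) d x := by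
    rw [sum_congr rfl h1, sum_const, nsmul_eq_mul]
  rw [← h2]
  unfold gam
  rw [← sum_biUnion]
  · exact sec_bessel hp0 hp1 J f hf x _
  · intro v hv w hw hvw
    rw [Function.onFun, disjoint_left]
    intro A hA hB
    rw [mem_fam] at hA hB
    have hne : A.Nonempty := card_pos.1 (by omega)
    obtain ⟨e, he⟩ := hne
    exact disjoint_left.1 (hdisj v hv w hw hvw) (hA.1 he) (hB.1 he)

/-- The low degree part. -/
noncomputable def low (p : ℝ) (J : Finset ι) (f : (ι → Bool) → ℝ) (s : Finset ι) (d : ℕ)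
    (x : ι → Bool) : ℝ :=
  ∑ A ∈ fam s d, sec p J f A x * chi p A x

lemma ex_mul_low (J : Finset ι) (f : (ι → Bool) → ℝ) (s : Finset ι) (hs : s ⊆ J) (d : ℕ) :
    ex p (fun x => f x * low p J f s d x) = ex p (gam p J f s d) := by
  rw [← ex_resample p J (fun x => f x * low p J f s d x)]
  congr 1
  ext x
  unfold low gam
  simp_rw [sec_inv J J (Subset.refl J), mul_sum]
  rw [ex_sum]
  refine sum_congr rfl fun A hA => ?_
  have hAJ : A ⊆ J := (mem_fam.1 hA).1.trans hs
  simp_rw [chi_pw_mem hAJ]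
  have e1 : (fun y => f (J.piecewise y x) * (sec p J f A x * chi p A y)) =
      fun y => sec p J f A x * (f (J.piecewise y x) * chi p A y) := by
    ext y; ring
  rw [e1, ex_const_mul, sq]
  rfl

lemma ex_avg_mul_low (hp0 : 0 < p) (hp1 : p < 1) (J T : Finset ι) (f : (ι → Bool) → ℝ)
    (s : Finset ι) (hs : s ⊆ J) (hsT : s ⊆ T) (d : ℕ) :
    ex p (fun x => avg p T f x * low p J f s d x) = 0 := by
  unfold low
  simp_rw [mul_sum]
  rw [ex_sum]
  refine sum_eq_zero fun A hA => ?_
  rw [mem_fam] at hA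
  have h := ex_indep p s (fun x => avg p T f x * sec p J f A x) (chi p A)
    (fun x y => by rw [avg_inv T s hsT, sec_inv J s hs]) (fun x y => chi_pw_mem hA.1 y x)
  have h1 : ex p (chi p A) = 0 := by
    rw [ex_chi hp0 hp1, if_neg]
    rintro rfl
    simp at hA
  rw [h1, mul_zero] at h
  rw [← h]
  congr 1
  ext x
  ring

lemma sum_fc_le_gam (hp0 : 0 < p) (hp1 : p < 1) (J : Finset ι) (f : (ι → Bool) → ℝ)
    (s : Finset ι) (hs : s ⊆ J) (d : ℕ) :
    ∑ S : Finset ι with S ∩ J ∈ fam s d, fc p f S ^ 2 ≤ ex p (gam p J f s d) := by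
  have h1 : ex p (gam p J f s d) = ∑ A ∈ fam s d, ex p (fun x => sec p J f A x ^ 2) := by
    rw [← ex_sum]; rfl
  rw [h1]
  have h2 : ∑ S : Finset ι with S ∩ J ∈ fam s d, fc p f S ^ 2 =
      ∑ A ∈ fam s d, ∑ S : Finset ι with S ∩ J = A, fc p f S ^ 2 := by
    rw [← sum_fiberwise_of_maps_to (s := univ.filter (fun S : Finset ι => S ∩ J ∈ fam s d))
      (t := fam s d) (g := fun S => S ∩ J) (fun S hS => (mem_filter.1 hS).2)]
    refine sum_congr rfl fun A hA => sum_congr ?_ fun _ _ => rfl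
    ext S
    simp only [mem_filter, mem_univ, true_and]
    constructor
    · exact fun h => h.2
    · exact fun h => ⟨by rw [h]; exact hA, h⟩
  rw [h2]
  refine sum_le_sum fun A hA => ?_
  have hAJ : A ⊆ J := (mem_fam.1 hA).1.trans hs
  -- Fourier coefficients of the section coefficient
  have h3 : ∀ S : Finset ι, S ∩ J = A → fc p (sec p J f A) (S \ J) = fc p f S := by
    intro S hS
    have hdis : Disjoint (S \ J) J := disjoint_sdiff_self_left
    have hS' : S = A ∪ (S \ J) := by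
      rw [← hS]; ext e; simp only [mem_union, mem_inter, mem_sdiff]; tauto
    conv_rhs => rw [hS']
    unfold fc
    rw [← ex_resample p J (fun x => f x * chi p (A ∪ (S \ J)) x)]
    congr 1
    ext x
    unfold sec
    rw [← ex_mul_const]
    congr 1
    ext y
    have hdis2 : Disjoint A (S \ J) := disjoint_of_subset_left hAJ hdis.symm
    rw [chi_union hdis2, chi_pw_mem hAJ, chi_pw_notMem hdis]
    ring
  have h4 : ∑ S : Finset ι with S ∩ J = A, fc p f S ^ 2 =
      ∑ S : Finset ι with S ∩ J = A, fc p (sec p J f A) (S \ J) ^ 2 := by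
    refine sum_congr rfl fun S hS => ?_
    rw [h3 S (mem_filter.1 hS).2]
  rw [h4]
  have h5 : ∑ S : Finset ι with S ∩ J = A, fc p (sec p J f A) (S \ J) ^ 2 =
      ∑ T ∈ (univ.filter (fun S : Finset ι => S ∩ J = A)).image (fun S => S \ J),
        fc p (sec p J f A) T ^ 2 := by
    rw [sum_image]
    intro S hS S' hS' h
    have hS1 : S ∩ J = A := (mem_filter.1 (mem_coe.1 hS)).2
    have hS2 : S' ∩ J = A := (mem_filter.1 (mem_coe.1 hS')).2
    have e1 : S = (S ∩ J) ∪ (S \ J) := by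
      ext e; simp only [mem_union, mem_inter, mem_sdiff]; tauto
    have e2 : S' = (S' ∩ J) ∪ (S' \ J) := by
      ext e; simp only [mem_union, mem_inter, mem_sdiff]; tauto
    rw [e1, e2, hS1, hS2]
    simp only at h
    rw [h]
  rw [h5]
  exact bessel hp0 hp1 _ _

lemma avg_nonneg (hp0 : 0 < p) (hp1 : p < 1) (J : Finset ι) (f : (ι → Bool) → ℝ)
    (hf : ∀ x, f x = 0 ∨ f x = 1) (x : ι → Bool) : 0 ≤ avg p J f x :=
  ex_nonneg hp0.le hp1.le fun y => by
    rcases hf (J.piecewise y x) with h | h <;> rw [h] <;> norm_num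

lemma avg_le_one (hp0 : 0 < p) (hp1 : p < 1) (J : Finset ι) (f : (ι → Bool) → ℝ)
    (hf : ∀ x, f x = 0 ∨ f x = 1) (x : ι → Bool) : avg p J f x ≤ 1 :=
  ex_le_one hp0 hp1 fun y => by
    rcases hf (J.piecewise y x) with h | h <;> rw [h] <;> norm_num

lemma ex_abs_sub (hp0 : 0 < p) (hp1 : p < 1) (J : Finset ι) (f : (ι → Bool) → ℝ)
    (hf : ∀ x, f x = 0 ∨ f x = 1) :
    ex p (fun x => |f x - avg p J f x|) ≤
      2 * ∑ S : Finset ι with ¬ Disjoint S J, fc p f S ^ 2 := by
  have h1 : ∀ x, |f x - avg p J f x| = f x ^ 2 + avg p J f x - 2 * (f x * avg p J f x) := by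
    intro x
    have h0 := avg_nonneg hp0 hp1 J f hf x
    have h1 := avg_le_one hp0 hp1 J f hf x
    rcases hf x with h | h
    · rw [h, zero_sub, abs_neg, abs_of_nonneg h0]; ring
    · rw [h, abs_of_nonneg (by linarith)]; ring
  have h2 : ex p (avg p J f) = ex p (fun x => f x ^ 2) := by
    have : ex p (avg p J f) = ex p f := ex_resample p J f
    rw [this]
    congr 1
    ext x
    rcases hf x with h | h <;> rw [h] <;> norm_num
  simp_rw [h1]
  rw [ex_sub, ex_add, h2, ex_const_mul]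
  have := tau_le hp0 hp1 J f
  linarith

/-- **Key inequality.** -/
theorem key (bon : ∀ (d : ℕ) (𝒜 : Finset (Finset ι)), (∀ A ∈ 𝒜, A.card ≤ d) →
      ∀ c : Finset ι → ℝ, ex p (fun x => (∑ A ∈ 𝒜, c A * chi p A x) ^ 4) ≤
        (4 / (p * (1 - p))) ^ d * (∑ A ∈ 𝒜, c A ^ 2) ^ 2)
    (hp0 : 0 < p) (hp1 : p < 1) {κ : Type*} [DecidableEq κ] (U : Finset κ) (J : Finset ι)
    (st : κ → Finset ι) (f : (ι → Bool) → ℝ) (hf : ∀ x, f x = 0 ∨ f x = 1)
    (hdisj : ∀ u ∈ U, ∀ v ∈ U, u ≠ v → Disjoint (st u) (st v))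
    (hsym : ∀ u ∈ U, ∀ v ∈ U, ∃ σ : Equiv.Perm ι, (∀ x, f (x ∘ σ) = f x) ∧
      (∀ e, e ∉ J → σ e = e) ∧ (∀ e, e ∈ st u ↔ σ e ∈ st v)) (d : ℕ)
    (u : κ) (hu : u ∈ U) (hJ : st u ⊆ J) (T : Finset ι) (hT : st u ⊆ T)
    (lam : ℝ) (hlam : 0 < lam)
    (hm : 2 * (4 / (p * (1 - p))) ^ d ≤ lam ^ 3 * (U.card : ℝ)) :
    ∑ S : Finset ι with S ∩ J ∈ fam (st u) d, fc p f S ^ 2 ≤
      4 * lam * ∑ S : Finset ι with ¬ Disjoint S T, fc p f S ^ 2 := by
  have hq : 0 < p * (1 - p) := mul_pos hp0 (by linarith)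
  set B : ℝ := 4 / (p * (1 - p)) with hB
  have hBpos : 0 < B := by positivity
  set L : ℝ := ex p (gam p J f (st u) d) with hL
  set τ : ℝ := ∑ S : Finset ι with ¬ Disjoint S T, fc p f S ^ 2 with hτ
  have hcard : 0 < (U.card : ℝ) := by
    have := card_pos.2 ⟨u, hu⟩
    exact_mod_cast this
  refine le_trans (sum_fc_le_gam hp0 hp1 J f (st u) hJ d) ?_
  -- fourth moment
  have h4 : ex p (fun x => low p J f (st u) d x ^ 4) ≤ B ^ d * (L / U.card) := by
    rw [← ex_resample p J (fun x => low p J f (st u) d x ^ 4)]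
    have h5 : ∀ x, ex p (fun y => low p J f (st u) d (J.piecewise y x) ^ 4) ≤
        B ^ d * (gam p J f (st u) d x / U.card) := by
      intro x
      have e1 : (fun y => low p J f (st u) d (J.piecewise y x) ^ 4) =
          fun y => (∑ A ∈ fam (st u) d, sec p J f A x * chi p A y) ^ 4 := by
        ext y
        unfold low
        congr 1
        refine sum_congr rfl fun A hA => ?_
        rw [sec_inv J J (Subset.refl J), chi_pw_mem ((mem_fam.1 hA).1.trans hJ)]
      rw [e1]
      refine le_trans (bon d (fam (st u) d) (fun A hA => (mem_fam.1 hA).2.2)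
        (fun A => sec p J f A x)) ?_
      refine mul_le_mul_of_nonneg_left ?_ (by positivity)
      change (gam p J f (st u) d x) ^ 2 ≤ _
      have h6 := gam_le hp0 hp1 U J st f hf hdisj hsym d x u hu
      have h7 := gam_nonneg (p := p) J f (st u) d x
      rw [le_div_iff₀ hcard, sq]
      calc gam p J f (st u) d x * gam p J f (st u) d x * U.card
          = gam p J f (st u) d x * (U.card * gam p J f (st u) d x) := by ring
        _ ≤ gam p J f (st u) d x * 1 := mul_le_mul_of_nonneg_left h6 h7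
        _ = _ := mul_one _
    refine le_trans (ex_mono hp0.le hp1.le h5) ?_
    rw [ex_const_mul]
    have : (fun x => gam p J f (st u) d x / (U.card : ℝ)) =
        fun x => (1 / (U.card : ℝ)) * gam p J f (st u) d x := by
      ext x; ring
    rw [this, ex_const_mul]
    apply le_of_eq
    rw [hL]
    ring
  -- main identity
  have h8 : L = ex p (fun x => (f x - avg p T f x) * low p J f (st u) d x) := by
    have e1 := ex_mul_low (p := p) J f (st u) hJ d
    have e2 := ex_avg_mul_low hp0 hp1 J T f (st u) hJ hT d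
    simp_rw [sub_mul]
    rw [ex_sub, e1, e2, sub_zero]
  have h9 : ∀ x, (f x - avg p T f x) * low p J f (st u) d x ≤
      lam * |f x - avg p T f x| + (1 / lam ^ 3) * low p J f (st u) d x ^ 4 := by
    intro x
    set g := low p J f (st u) d x
    set h := f x - avg p T f x with hh
    have hh1 : |h| ≤ 1 := by
      have h0 := avg_nonneg hp0 hp1 T f hf x
      have h1 := avg_le_one hp0 hp1 T f hf x
      rw [hh, abs_le]
      rcases hf x with h | h <;> rw [h] <;> constructor <;> linarith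
    have hg4 : g ^ 4 = |g| ^ 4 := by
      rw [← abs_pow, abs_of_nonneg (by positivity)]
    rw [hg4]
    refine le_trans (le_abs_self _) ?_
    rw [abs_mul]
    rcases le_total |g| lam with hg | hg
    · have : |h| * |g| ≤ lam * |h| := by
        rw [mul_comm]; exact mul_le_mul_of_nonneg_right hg (abs_nonneg _)
      have : 0 ≤ 1 / lam ^ 3 * |g| ^ 4 := by positivity
      linarith
    · have e1 : |h| * |g| ≤ |g| := by
        calc |h| * |g| ≤ 1 * |g| := mul_le_mul_of_nonneg_right hh1 (abs_nonneg _)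
          _ = |g| := one_mul _
      have e2 : |g| ≤ 1 / lam ^ 3 * |g| ^ 4 := by
        rw [one_div, ← div_eq_inv_mul, le_div_iff₀ (by positivity)]
        calc |g| * lam ^ 3 ≤ |g| * |g| ^ 3 :=
              mul_le_mul_of_nonneg_left (pow_le_pow_left₀ hlam.le hg 3) (abs_nonneg _)
          _ = |g| ^ 4 := by ring
      have : 0 ≤ lam * |h| := by positivity
      linarith
  have h10 := ex_mono hp0.le hp1.le h9
  rw [← h8, ex_add, ex_const_mul, ex_const_mul] at h10
  have h11 := ex_abs_sub hp0 hp1 T f hf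
  have h12 : (1 / lam ^ 3) * ex p (fun x => low p J f (st u) d x ^ 4) ≤ L / 2 := by
    have hLnn : 0 ≤ L := ex_nonneg hp0.le hp1.le fun x => gam_nonneg J f (st u) d x
    calc (1 / lam ^ 3) * ex p (fun x => low p J f (st u) d x ^ 4)
        ≤ (1 / lam ^ 3) * (B ^ d * (L / U.card)) :=
          mul_le_mul_of_nonneg_left h4 (by positivity)
      _ = (B ^ d / (lam ^ 3 * U.card)) * L := by
          field_simp
      _ ≤ (1 / 2) * L := by
          refine mul_le_mul_of_nonneg_right ?_ hLnn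
          rw [div_le_iff₀ (by positivity)]
          linarith
      _ = L / 2 := by ring
  have h13 : lam * ex p (fun x => |f x - avg p T f x|) ≤ lam * (2 * τ) :=
    mul_le_mul_of_nonneg_left h11 hlam.le
  linarith

end P063
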