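import Vale.Agent.P063.Final

/-!
# P063: lower bound for the threshold width, part 1: properties with small certificates (helper5)
-/

namespace P063

open Finset

section low

variable {n r : ℕ}

/-- every member of `P` has a certificate with at most `K` edges -/
def Cert (P : Set (Hyper n r)) (K : ℕ) : Prop :=
  ∀ x ∈ P, ∃ C : Finset (Edge n r), C.card ≤ K ∧ (∀ e ∈ C, x e = true) ∧
    ∀ y : Hyper n r, (∀ e ∈ C, y e = true) → y ∈ P

/-- resampling one coordinate -/
theorem ex_bit (p : ℝ) (e : Edge n r) (g : Hyper n r → ℝ)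
    (hg : ∀ x b, g (Function.update x e b) = g x) :
    ex p (fun x => (if x e then (1 : ℝ) else 0) * g x) = p * ex p g := by
  rw [← ex_resample p {e} (fun x => (if x e then (1 : ℝ) else 0) * g x)]
  have h1 : ∀ x y : Hyper n r,
      (if (({e} : Finset (Edge n r)).piecewise y x) e then (1 : ℝ) else 0) *
        g (({e} : Finset (Edge n r)).piecewise y x) =
      (fun b : Bool => (if b then (1 : ℝ) else 0) * g x) (y e) := by
    intro x y
    rw [Finset.piecewise_singleton, hg, Function.update_self]
  simp only [h1]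
  rw [← ex_const_mul]
  congr 1
  ext x
  refine (ex_single p e (fun b : Bool => (if b then (1 : ℝ) else 0) * g x)).trans ?_
  simp

/-- the discrete derivative of the indicator -/
noncomputable def dP (P : Set (Hyper n r)) (e : Edge n r) (x : Hyper n r) : ℝ :=
  P.indicator (fun _ => (1 : ℝ)) (Function.update x e true) -
    P.indicator (fun _ => (1 : ℝ)) (Function.update x e false)

theorem dP_update (P : Set (Hyper n r)) (e : Edge n r) (x : Hyper n r) (b : Bool) :
    dP P e (Function.update x e b) = dP P e x := by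
  unfold dP
  rw [Function.update_idem, Function.update_idem]

theorem upd_le (e : Edge n r) (x : Hyper n r) :
    Function.update x e false ≤ Function.update x e true := by
  rw [update_le_update_iff]
  exact ⟨Bool.false_le _, fun _ _ => le_refl _⟩

theorem dP_nonneg {P : Set (Hyper n r)} (hup : IsUpperSet P) (e : Edge n r) (x : Hyper n r) :
    0 ≤ dP P e x := by
  unfold dP
  by_cases hx : Function.update x e false ∈ P
  · have hx' := hup (upd_le e x) hx
    rw [Set.indicator_of_mem hx, Set.indicator_of_mem hx']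
    norm_num
  · rw [Set.indicator_of_notMem hx]
    have : 0 ≤ P.indicator (fun _ => (1 : ℝ)) (Function.update x e true) :=
      Set.indicator_nonneg (fun _ _ => zero_le_one) _
    linarith

theorem dP_le_one (P : Set (Hyper n r)) (e : Edge n r) (x : Hyper n r) : dP P e x ≤ 1 := by
  unfold dP
  have h1 : 0 ≤ P.indicator (fun _ => (1 : ℝ)) (Function.update x e false) :=
    Set.indicator_nonneg (fun _ _ => zero_le_one) _
  have h2 : P.indicator (fun _ => (1 : ℝ)) (Function.update x e true) ≤ 1 := by
    by_cases hx : Function.update x e true ∈ P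
    · rw [Set.indicator_of_mem hx]
    · rw [Set.indicator_of_notMem hx]
      norm_num
  linarith

theorem piv_le {P : Set (Hyper n r)} (hup : IsUpperSet P) {K : ℕ} (hC : Cert P K)
    (x : Hyper n r) :
    ∑ e : Edge n r, (if x e then (1 : ℝ) else 0) * dP P e x ≤
      K * P.indicator (fun _ => (1 : ℝ)) x := by
  by_cases hx : x ∈ P
  · obtain ⟨C, hCK, hC1, hC2⟩ := hC x hx
    rw [Set.indicator_of_mem hx, mul_one]
    have h1 : ∀ e : Edge n r, (if x e then (1 : ℝ) else 0) * dP P e x ≤
        if e ∈ C then 1 else 0 := by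
      intro e
      by_cases he : e ∈ C
      · rw [if_pos he, if_pos (hC1 e he), one_mul]
        exact dP_le_one P e x
      · rw [if_neg he]
        have h2 : Function.update x e false ∈ P := by
          apply hC2
          intro e' he'
          have hne : e' ≠ e := fun h => he (h ▸ he')
          rw [Function.update_of_ne hne]
          exact hC1 e' he'
        have h3 : dP P e x = 0 := by
          unfold dP
          rw [Set.indicator_of_mem h2, Set.indicator_of_mem (hup (upd_le e x) h2), sub_self]
        rw [h3, mul_zero]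
    calc ∑ e : Edge n r, (if x e then (1 : ℝ) else 0) * dP P e x
        ≤ ∑ e : Edge n r, (if e ∈ C then (1 : ℝ) else 0) := Finset.sum_le_sum fun e _ => h1 e
      _ = (C.card : ℝ) := by
          rw [Finset.sum_ite_mem, Finset.univ_inter, Finset.sum_const, nsmul_eq_mul, mul_one]
      _ ≤ K := by exact_mod_cast hCK
  · rw [Set.indicator_of_notMem hx, mul_zero]
    refine Finset.sum_nonpos fun e _ => ?_
    by_cases he : x e = true
    · rw [if_pos he, one_mul]
      have h1 : Function.update x e true = x := by
        rw [← he, Function.update_eq_self]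
      unfold dP
      rw [h1, Set.indicator_of_notMem hx]
      have : 0 ≤ P.indicator (fun _ => (1 : ℝ)) (Function.update x e false) :=
        Set.indicator_nonneg (fun _ _ => zero_le_one) _
      linarith
    · rw [if_neg he, zero_mul]

/-- `p μ'(p) ≤ K μ(p)` -/
theorem p_deriv_le {P : Set (Hyper n r)} (hup : IsUpperSet P) {K : ℕ} (hC : Cert P K)
    (p : ℝ) (hp0 : 0 ≤ p) (hp1 : p ≤ 1) :
    p * ∑ e : Edge n r, ex p (dP P e) ≤ K * mu p P := by
  rw [Finset.mul_sum]
  have h1 : ∀ e : Edge n r, p * ex p (dP P e) =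
      ex p (fun x => (if x e then (1 : ℝ) else 0) * dP P e x) := fun e =>
    (ex_bit p e (dP P e) (fun x b => dP_update P e x b)).symm
  rw [Finset.sum_congr rfl fun e _ => h1 e, ← ex_sum, mu_eq_ex, ← ex_const_mul]
  exact ex_mono hp0 hp1 fun x => piv_le hup hC x

theorem mu_der (P : Set (Hyper n r)) (p : ℝ) :
    HasDerivAt (fun p => mu p P) (∑ e : Edge n r, ex p (dP P e)) p := by
  have h := hasDerivAt_ex (fun x => P.indicator (fun _ => (1 : ℝ)) x) p
  have h2 : (fun p => mu p P) = (fun p => ex p (fun x => P.indicator (fun _ => (1 : ℝ)) x)) := by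
    funext q
    exact mu_eq_ex P q
  rw [h2]
  exact h

theorem mu_cont (P : Set (Hyper n r)) : Continuous (fun p => mu p P) :=
  continuous_iff_continuousAt.2 (fun p => (mu_der P p).continuousAt)

theorem mu_mono {P : Set (Hyper n r)} (hup : IsUpperSet P) :
    MonotoneOn (fun p => mu p P) (Set.Icc 0 1) := by
  apply monotoneOn_of_deriv_nonneg (convex_Icc 0 1) (mu_cont P).continuousOn
  · intro p _
    exact (mu_der P p).differentiableAt.differentiableWithinAt
  · intro p hp
    rw [interior_Icc] at hp
    rw [(mu_der P p).deriv]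
    exact Finset.sum_nonneg fun e _ => ex_nonneg hp.1.le hp.2.le fun x => dP_nonneg hup e x

theorem crit_spec {P : Set (Hyper n r)} (hup : IsUpperSet P) (hne : P.Nonempty)
    (hnu : P ≠ Set.univ) (a : ℝ) (ha0 : 0 < a) (ha1 : a < 1) :
    0 < crit a P ∧ crit a P ≤ 1 ∧ mu (crit a P) P = a := by
  have hcont := mu_cont P
  set S : Set ℝ := {p : ℝ | 0 ≤ p ∧ p ≤ 1 ∧ a ≤ mu p P} with hS
  have hSne : S.Nonempty := ⟨1, zero_le_one, le_refl 1, by rw [mu_one' P hup hne]; exact ha1.le⟩
  have hSbdd : BddBelow S := ⟨0, fun p hp => hp.1⟩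
  have hSclosed : IsClosed S := by
    have : S = Set.Icc 0 1 ∩ {p | a ≤ mu p P} := by
      ext p; simp [hS, Set.mem_Icc, and_assoc]
    rw [this]
    exact isClosed_Icc.inter (isClosed_le continuous_const hcont)
  have hmem : sInf S ∈ S := hSclosed.csInf_mem hSne hSbdd
  have hpos : 0 < sInf S := by
    rcases hmem.1.lt_or_eq with h | h
    · exact h
    · exfalso
      have h2 := hmem.2.2
      rw [← h, mu_zero' P hup hnu] at h2
      linarith
  refine ⟨hpos, hmem.2.1, le_antisymm ?_ hmem.2.2⟩
  by_contra hcon
  push Not at hcon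
  change a < mu (sInf S) P at hcon
  have hopen : ∀ᶠ p in nhds (sInf S), a < mu p P :=
    hcont.continuousAt.eventually (lt_mem_nhds hcon)
  obtain ⟨δ, hδ, hball⟩ := Metric.eventually_nhds_iff.1 hopen
  set q := max 0 (sInf S - δ / 2) with hq
  have hq1 : q < sInf S := by
    rw [hq]; apply max_lt hpos; linarith
  have hq2 : dist q (sInf S) < δ := by
    rw [Real.dist_eq, abs_sub_comm, abs_of_pos (by linarith)]
    have : sInf S - δ / 2 ≤ q := le_max_right _ _
    linarith
  have hqS : q ∈ S := by
    refine ⟨le_max_left _ _, ?_, (hball hq2).le⟩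
    have := hmem.2.1
    linarith
  have := csInf_le hSbdd hqS
  linarith

/-- properties with certificates of size `K` have width at least `p_ε log ((1-ε)/ε) / K` -/
theorem width_ge {P : Set (Hyper n r)} (hup : IsUpperSet P) (hne : P.Nonempty)
    (hnu : P ≠ Set.univ) {K : ℕ} (hC : Cert P K) (ε : ℝ) (hε : 0 < ε) (hε2 : ε < 1 / 2) :
    crit ε P * Real.log ((1 - ε) / ε) ≤ K * width ε P := by
  obtain ⟨h00, h01, h0m⟩ := crit_spec hup hne hnu ε hε (by linarith)
  obtain ⟨h10, h11, h1m⟩ := crit_spec hup hne hnu (1 - ε) (by linarith) (by linarith)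
  unfold width
  set p0 := crit ε P with hp0
  set p1 := crit (1 - ε) P with hp1
  have hle : p0 ≤ p1 := by
    by_contra hcon
    push Not at hcon
    have := mu_mono hup ⟨h10.le, h11⟩ ⟨h00.le, h01⟩ hcon.le
    simp only [h0m, h1m] at this
    linarith
  have hmupos : ∀ p ∈ Set.Icc p0 p1, 0 < mu p P := by
    intro p hp
    have := mu_mono hup ⟨h00.le, h01⟩ ⟨h00.le.trans hp.1, hp.2.trans h11⟩ hp.1
    simp only [h0m] at this
    linarith
  have hg : ∀ p ∈ Set.Icc p0 p1, HasDerivAt (fun p => K * Real.log p - Real.log (mu p P))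
      (K * p⁻¹ - (∑ e : Edge n r, ex p (dP P e)) / mu p P) p := by
    intro p hp
    have hpp : 0 < p := lt_of_lt_of_le h00 hp.1
    exact ((Real.hasDerivAt_log hpp.ne').const_mul (K : ℝ)).sub
      ((mu_der P p).log (hmupos p hp).ne')
  have hmono : MonotoneOn (fun p => K * Real.log p - Real.log (mu p P)) (Set.Icc p0 p1) := by
    apply monotoneOn_of_deriv_nonneg (convex_Icc p0 p1)
    · intro p hp
      exact (hg p hp).continuousAt.continuousWithinAt
    · intro p hp
      exact (hg p (interior_subset hp)).differentiableAt.differentiableWithinAt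
    · intro p hp
      have hp' := interior_subset hp
      rw [(hg p hp').deriv]
      have hpp : 0 < p := lt_of_lt_of_le h00 hp'.1
      have h1 := p_deriv_le hup hC p hpp.le (hp'.2.trans h11)
      have h2 := hmupos p hp'
      rw [sub_nonneg, div_le_iff₀ h2, mul_comm (K : ℝ), mul_assoc, ← div_eq_inv_mul,
        le_div_iff₀ hpp]
      linarith
  have hfin := hmono (Set.left_mem_Icc.2 hle) (Set.right_mem_Icc.2 hle) hle
  simp only [h0m, h1m] at hfin
  have h2 : Real.log p1 - Real.log p0 ≤ p1 / p0 - 1 := by
    rw [← Real.log_div h10.ne' h00.ne']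
    exact Real.log_le_sub_one_of_pos (div_pos h10 h00)
  have h3 : Real.log ((1 - ε) / ε) = Real.log (1 - ε) - Real.log ε :=
    Real.log_div (by linarith) hε.ne'
  have h4 : Real.log ((1 - ε) / ε) ≤ K * (p1 / p0 - 1) := by
    rw [h3]
    have h5 : (K : ℝ) * (Real.log p1 - Real.log p0) ≤ K * (p1 / p0 - 1) :=
      mul_le_mul_of_nonneg_left h2 (Nat.cast_nonneg K)
    linarith
  calc p0 * Real.log ((1 - ε) / ε) ≤ p0 * (K * (p1 / p0 - 1)) :=
        mul_le_mul_of_nonneg_left h4 h00.le
    _ = K * (p1 - p0) := by
        field_simp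

end low

end P063
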