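import Vale.Agent.P063.Low1

/-!
# P063: lower bound for the threshold width, part 2: complete subhypergraphs (helper5)
-/

namespace P063

open Finset

section clq

variable {n r : ℕ}

/-- the edges inside the vertex set `T` -/
def inT (r : ℕ) (T : Finset (Fin n)) : Finset (Edge n r) := univ.filter (fun e => e.1 ⊆ T)

/-- the property of containing a complete `r`-uniform hypergraph on `k` vertices -/
def Clq (n r k : ℕ) : Set (Hyper n r) :=
  {x | ∃ T : Finset (Fin n), T.card = k ∧ ∀ e ∈ inT r T, x e = true}

theorem inT_card (T : Finset (Fin n)) : (inT r T).card = T.card.choose r := by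
  rw [← Finset.card_powersetCard r T]
  refine Finset.card_bij (fun e _ => e.1) ?_ ?_ ?_
  · intro e he
    rw [Finset.mem_powersetCard]
    exact ⟨(Finset.mem_filter.1 he).2, e.2⟩
  · intro e _ e' _ h
    exact Subtype.ext h
  · intro s hs
    rw [Finset.mem_powersetCard] at hs
    exact ⟨⟨s, hs.2⟩, Finset.mem_filter.2 ⟨Finset.mem_univ _, hs.1⟩, rfl⟩

theorem clq_prop (k : ℕ) : IsProperty (Clq n r k) := by
  intro π x
  constructor
  · rintro ⟨T, hT, h⟩
    refine ⟨T.map π.toEmbedding, by rw [Finset.card_map]; exact hT, fun e he => ?_⟩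
    have he' := (Finset.mem_filter.1 he).2
    have h1 : mapEdge π (mapEdge π.symm e) = e := by
      apply Subtype.ext
      unfold mapEdge
      ext v
      simp
    have h2 := h (mapEdge π.symm e) (Finset.mem_filter.2 ⟨Finset.mem_univ _, by
      intro v hv
      unfold mapEdge at hv
      rw [Finset.mem_map] at hv
      obtain ⟨w, hw, rfl⟩ := hv
      have := he' hw
      rw [Finset.mem_map] at this
      obtain ⟨u, hu, hu2⟩ := this
      have h3 : π.symm.toEmbedding w = u := by
        change π.symm w = u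
        rw [← hu2]
        exact π.symm_apply_apply u
      rw [h3]
      exact hu⟩)
    simp only [h1] at h2
    exact h2
  · rintro ⟨T, hT, h⟩
    refine ⟨T.map π.symm.toEmbedding, by rw [Finset.card_map]; exact hT, fun e he => ?_⟩
    have he' := (Finset.mem_filter.1 he).2
    apply h
    refine Finset.mem_filter.2 ⟨Finset.mem_univ _, ?_⟩
    intro v hv
    unfold mapEdge at hv
    rw [Finset.mem_map] at hv
    obtain ⟨w, hw, rfl⟩ := hv
    have := he' hw
    rw [Finset.mem_map] at this
    obtain ⟨u, hu, hu2⟩ := this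
    have h3 : π.toEmbedding w = u := by
      change π w = u
      rw [← hu2]
      exact π.apply_symm_apply u
    rw [h3]
    exact hu

theorem clq_up (k : ℕ) : IsUpperSet (Clq n r k) := by
  rintro x y hxy ⟨T, hT, h⟩
  refine ⟨T, hT, fun e he => ?_⟩
  have h1 := hxy e
  rw [h e he] at h1
  exact top_le_iff.1 h1

theorem clq_ne (k : ℕ) (hk : k ≤ n) : (Clq n r k).Nonempty := by
  obtain ⟨T, _, hT⟩ := Finset.exists_subset_card_eq (s := (univ : Finset (Fin n))) (n := k)
    (by rw [Finset.card_univ, Fintype.card_fin]; exact hk)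
  exact ⟨fun _ => true, T, hT, fun _ _ => rfl⟩

theorem clq_nu (k : ℕ) (hk : r ≤ k) : Clq n r k ≠ Set.univ := by
  intro h
  have h1 : (fun _ => false : Hyper n r) ∈ Clq n r k := by
    rw [h]
    exact Set.mem_univ _
  obtain ⟨T, hT, h2⟩ := h1
  have h3 : 0 < (inT r T).card := by
    rw [inT_card, hT]
    exact Nat.choose_pos hk
  obtain ⟨e, he⟩ := Finset.card_pos.1 h3
  exact Bool.false_ne_true (h2 e he)

theorem clq_cert (k : ℕ) : Cert (Clq n r k) (k.choose r) := by
  rintro x ⟨T, hT, h⟩
  refine ⟨inT r T, by rw [inT_card, hT], h, fun y hy => ⟨T, hT, hy⟩⟩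

/-- the probability that all edges of `C` are present -/
theorem ex_all (p : ℝ) (C : Finset (Edge n r)) :
    ex p (fun x : Hyper n r => if ∀ e ∈ C, x e = true then (1 : ℝ) else 0) = p ^ C.card := by
  have h := ex_prod p (fun (e : Edge n r) (b : Bool) =>
    if e ∈ C then (if b then (1 : ℝ) else 0) else 1)
  have h1 : (fun x : Hyper n r => ∏ e, (if e ∈ C then (if x e then (1 : ℝ) else 0) else 1)) =
      fun x => if ∀ e ∈ C, x e = true then (1 : ℝ) else 0 := by
    funext x
    by_cases hx : ∀ e ∈ C, x e = true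
    · rw [if_pos hx]
      refine Finset.prod_eq_one fun e _ => ?_
      by_cases he : e ∈ C
      · rw [if_pos he, if_pos (hx e he)]
      · rw [if_neg he]
    · rw [if_neg hx]
      push Not at hx
      obtain ⟨e, he, hxe⟩ := hx
      refine Finset.prod_eq_zero (Finset.mem_univ e) ?_
      rw [if_pos he, if_neg hxe]
  rw [h1] at h
  rw [h]
  have h2 : ∀ e : Edge n r, (p * (if e ∈ C then (if (true : Bool) = true then (1 : ℝ) else 0) else 1) +
      (1 - p) * (if e ∈ C then (if (false : Bool) = true then (1 : ℝ) else 0) else 1)) =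
      if e ∈ C then p else 1 := by
    intro e
    by_cases he : e ∈ C
    · simp [he]
    · simp [he]
  rw [Finset.prod_congr rfl fun e _ => h2 e, Finset.prod_ite_mem, Finset.univ_inter,
    Finset.prod_const]

/-- union bound -/
theorem mu_clq_le (k : ℕ) (p : ℝ) (hp0 : 0 ≤ p) (hp1 : p ≤ 1) :
    mu p (Clq n r k) ≤ (n.choose k : ℝ) * p ^ (k.choose r) := by
  rw [mu_eq_ex]
  have h1 : ∀ x : Hyper n r, (Clq n r k).indicator (fun _ => (1 : ℝ)) x ≤
      ∑ T ∈ (univ : Finset (Fin n)).powersetCard k,
        (if ∀ e ∈ inT r T, x e = true then (1 : ℝ) else 0) := by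
    intro x
    have hnn : ∀ T ∈ (univ : Finset (Fin n)).powersetCard k,
        0 ≤ (if ∀ e ∈ inT r T, x e = true then (1 : ℝ) else 0) := by
      intro T _
      split_ifs
      · exact zero_le_one
      · exact le_rfl
    by_cases hx : x ∈ Clq n r k
    · rw [Set.indicator_of_mem hx]
      obtain ⟨T, hT, h⟩ := hx
      have h2 := Finset.single_le_sum hnn
        (Finset.mem_powersetCard.2 ⟨Finset.subset_univ T, hT⟩)
      rw [if_pos h] at h2
      exact h2
    · rw [Set.indicator_of_notMem hx]
      exact Finset.sum_nonneg hnn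
  refine (ex_mono hp0 hp1 h1).trans ?_
  rw [ex_sum]
  have h3 : ∀ T ∈ (univ : Finset (Fin n)).powersetCard k,
      ex p (fun x : Hyper n r => if ∀ e ∈ inT r T, x e = true then (1 : ℝ) else 0) =
      p ^ (k.choose r) := by
    intro T hT
    rw [ex_all, inT_card, (Finset.mem_powersetCard.1 hT).2]
  rw [Finset.sum_congr rfl h3, Finset.sum_const, Finset.card_powersetCard, Finset.card_univ,
    Fintype.card_fin, nsmul_eq_mul]

end clq

end P063
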