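import Vale.Agent.P063.Low2

/-!
# P063: lower bound for the threshold width, part 3: choice of the size (helper5)
-/

namespace P063

open Finset

theorem half_le_log {n : ℕ} (hn : 2 ≤ n) : 1 / 2 ≤ Real.log n := by
  have h1 : Real.log 2 ≤ Real.log n := Real.log_le_log (by norm_num) (by exact_mod_cast hn)
  have := Real.log_two_gt_d9
  linarith

/-- choice of `k` -/
theorem choose_k (r n : ℕ) (hr : 2 ≤ r) (hn : r ≤ n) : ∃ k : ℕ, r ≤ k ∧ k ≤ n ∧
    ((k.choose r : ℕ) : ℝ) ≤ (2 * r + 3) ^ r * (Real.log n) ^ ((r : ℝ) / ((r : ℝ) - 1)) ∧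
    ((n.choose k : ℕ) : ℝ) ≤ Real.exp (r * r.factorial * (k.choose r : ℕ)) := by
  have hn2 : 2 ≤ n := hr.trans hn
  have hr' : (2 : ℝ) ≤ r := by exact_mod_cast hr
  have hn0 : (0 : ℝ) < n := by
    have : (2 : ℝ) ≤ n := by exact_mod_cast hn2
    linarith
  obtain ⟨L, hLdef⟩ : ∃ L : ℝ, L = Real.log n := ⟨_, rfl⟩
  have hL : 1 / 2 ≤ L := by
    rw [hLdef]
    exact half_le_log hn2
  have hL0 : 0 < L := by linarith
  obtain ⟨s, hsdef⟩ : ∃ s : ℝ, s = L ^ (1 / ((r : ℝ) - 1)) := ⟨_, rfl⟩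
  have hr1 : 0 < (r : ℝ) - 1 := by linarith
  have hs0 : 0 < s := by
    rw [hsdef]
    exact Real.rpow_pos_of_pos hL0 _
  have hexp1 : 1 / ((r : ℝ) - 1) ≤ 1 := by
    rw [div_le_one hr1]
    linarith
  have hexp0 : 0 ≤ 1 / ((r : ℝ) - 1) := by positivity
  have hs : 1 / 2 ≤ s := by
    rcases le_total 1 L with h | h
    · have : (1 : ℝ) ≤ L ^ (1 / ((r : ℝ) - 1)) := Real.one_le_rpow h hexp0
      rw [hsdef]
      linarith
    · have : L ^ (1 : ℝ) ≤ L ^ (1 / ((r : ℝ) - 1)) :=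
        Real.rpow_le_rpow_of_exponent_ge hL0 h hexp1
      rw [Real.rpow_one] at this
      rw [hsdef]
      linarith
  have hsr1 : s ^ (r - 1) = L := by
    rw [hsdef, ← Real.rpow_natCast, ← Real.rpow_mul hL0.le]
    have : ((r - 1 : ℕ) : ℝ) = (r : ℝ) - 1 := by
      rw [Nat.cast_sub (by omega)]
      norm_num
    rw [this, one_div, inv_mul_cancel₀ hr1.ne', Real.rpow_one]
  have hsr : s ^ r = L ^ ((r : ℝ) / ((r : ℝ) - 1)) := by
    rw [hsdef, ← Real.rpow_natCast, ← Real.rpow_mul hL0.le]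
    congr 1
    field_simp
  obtain ⟨a, hadef⟩ : ∃ a : ℕ, a = ⌈s⌉₊ := ⟨_, rfl⟩
  have ha1 : s ≤ a := by
    rw [hadef]
    exact Nat.le_ceil s
  have ha2 : (a : ℝ) < s + 1 := by
    rw [hadef]
    exact Nat.ceil_lt_add_one hs0.le
  rw [← hLdef, ← hsr]
  refine ⟨min n (a + r), le_min hn (by omega), min_le_left _ _, ?_, ?_⟩
  · have h1 : (((min n (a + r)).choose r : ℕ) : ℝ) ≤ ((a + r : ℕ) : ℝ) ^ r := by
      have h2 : (min n (a + r)).choose r ≤ (a + r).choose r :=
        Nat.choose_le_choose r (min_le_right _ _)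
      have h3 : (a + r).choose r ≤ (a + r) ^ r := Nat.choose_le_pow _ _
      exact_mod_cast h2.trans h3
    refine h1.trans ?_
    rw [← mul_pow]
    apply pow_le_pow_left₀ (Nat.cast_nonneg _)
    push_cast
    nlinarith
  · rcases le_total n (a + r) with h | h
    · rw [min_eq_left h, Nat.choose_self, Nat.cast_one]
      exact Real.one_le_exp (by positivity)
    · rw [min_eq_right h]
      have h1 : ((n.choose (a + r) : ℕ) : ℝ) ≤ (n : ℝ) ^ (a + r) := by
        exact_mod_cast Nat.choose_le_pow n (a + r)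
      refine h1.trans ?_
      have h2 : (n : ℝ) ^ (a + r) = Real.exp ((a + r : ℕ) * L) := by
        rw [hLdef, Real.exp_nat_mul, Real.exp_log hn0]
      rw [h2]
      apply Real.exp_le_exp.2
      have h3 := Nat.pow_le_choose (α := ℝ) r (a + r)
      have h4 : a + r + 1 - r = a + 1 := by omega
      rw [h4] at h3
      have hf : (0 : ℝ) < r.factorial := by exact_mod_cast Nat.factorial_pos r
      rw [div_le_iff₀ hf] at h3
      have h5 : L ≤ ((a : ℝ) + 1) ^ (r - 1) := by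
        rw [← hsr1]
        exact pow_le_pow_left₀ hs0.le (by linarith) _
      have h6 : ((a + r : ℕ) : ℝ) ≤ r * ((a : ℝ) + 1) := by
        push_cast
        have : (0 : ℝ) ≤ a := Nat.cast_nonneg a
        nlinarith
      have h7 : ((a : ℝ) + 1) * ((a : ℝ) + 1) ^ (r - 1) = ((a : ℝ) + 1) ^ r := by
        rw [← pow_succ']
        congr 1
        omega
      calc ((a + r : ℕ) : ℝ) * L ≤ (r * ((a : ℝ) + 1)) * ((a : ℝ) + 1) ^ (r - 1) :=
            mul_le_mul h6 h5 hL0.le (by positivity)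
        _ = r * ((a : ℝ) + 1) ^ r := by rw [mul_assoc, h7]
        _ ≤ r * (((a + r).choose r : ℕ) * r.factorial) := by
            apply mul_le_mul_of_nonneg_left _ (by positivity)
            push_cast at h3
            exact h3
        _ = _ := by ring

/-- the lower bound for the threshold width -/
theorem width_lower (r n : ℕ) (hr : 2 ≤ r) (hn : r ≤ n) :
    ∃ P : Set (Hyper n r), IsProperty P ∧ IsUpperSet P ∧ P.Nonempty ∧ P ≠ Set.univ ∧
      ∀ ε : ℝ, 0 < ε → ε < 1 / 2 →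
        ε * Real.exp (-(r * r.factorial)) * Real.log ((1 - ε) / ε) / (2 * r + 3) ^ r *
          (Real.log n) ^ (-((r : ℝ) / ((r : ℝ) - 1))) ≤ width ε P := by
  obtain ⟨k, hrk, hkn, hK, hM⟩ := choose_k r n hr hn
  refine ⟨Clq n r k, clq_prop k, clq_up k, clq_ne k hkn, clq_nu k hrk, fun ε hε hε2 => ?_⟩
  have hn2 : 2 ≤ n := hr.trans hn
  have hL0 : 0 < Real.log n := by
    have := half_le_log hn2
    linarith
  have hKpos : 0 < k.choose r := Nat.choose_pos hrk
  have hKpos' : (0 : ℝ) < (k.choose r : ℕ) := by exact_mod_cast hKpos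
  obtain ⟨h00, h01, h0m⟩ := crit_spec (clq_up k) (clq_ne k hkn) (clq_nu (n := n) (r := r) k hrk) ε hε
    (by linarith)
  have hw := width_ge (clq_up k) (clq_ne k hkn) (clq_nu (n := n) (r := r) k hrk) (clq_cert k) ε hε
    hε2
  set p0 := crit ε (Clq n r k) with hp0
  have h1 := mu_clq_le (n := n) (r := r) k p0 h00.le h01
  rw [h0m] at h1
  have h2 : ε ≤ Real.exp (r * r.factorial * (k.choose r : ℕ)) * p0 ^ (k.choose r) :=
    h1.trans (mul_le_mul_of_nonneg_right hM (by positivity))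
  have h3 : (ε * Real.exp (-(r * r.factorial))) ^ (k.choose r) ≤ p0 ^ (k.choose r) := by
    rw [mul_pow, ← Real.exp_nat_mul]
    have h4 : ε ^ (k.choose r) ≤ ε :=
      pow_le_of_le_one hε.le (by linarith) hKpos.ne'
    have h5 : Real.exp ((k.choose r : ℕ) * (-((r : ℝ) * r.factorial))) =
        (Real.exp (r * r.factorial * (k.choose r : ℕ)))⁻¹ := by
      rw [← Real.exp_neg]
      congr 1
      ring
    rw [h5, ← div_eq_mul_inv, div_le_iff₀ (Real.exp_pos _)]
    linarith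
  have h4 : ε * Real.exp (-(r * r.factorial)) ≤ p0 :=
    le_of_pow_le_pow_left₀ hKpos.ne' h00.le h3
  have hlogpos : 0 < Real.log ((1 - ε) / ε) := by
    apply Real.log_pos
    rw [lt_div_iff₀ hε]
    linarith
  set A : ℝ := ε * Real.exp (-(r * r.factorial)) * Real.log ((1 - ε) / ε) with hA
  have hA0 : 0 < A := by positivity
  have h5 : A ≤ (k.choose r : ℕ) * width ε (Clq n r k) :=
    (mul_le_mul_of_nonneg_right h4 hlogpos.le).trans hw
  have hB : (0 : ℝ) < (2 * r + 3) ^ r := by positivity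
  have hLr : 0 < (Real.log n) ^ ((r : ℝ) / ((r : ℝ) - 1)) := Real.rpow_pos_of_pos hL0 _
  have hw0 : 0 < width ε (Clq n r k) := by
    by_contra hcon
    push Not at hcon
    have := mul_nonpos_of_nonneg_of_nonpos hKpos'.le hcon
    linarith
  have h6 : A ≤ ((2 * r + 3) ^ r * (Real.log n) ^ ((r : ℝ) / ((r : ℝ) - 1))) *
      width ε (Clq n r k) := h5.trans (mul_le_mul_of_nonneg_right hK hw0.le)
  rw [Real.rpow_neg hL0.le, ← div_eq_mul_inv, div_div, div_le_iff₀ (by positivity)]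
  linarith

end P063
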