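import Mathlib

/-!
# P063: definitions (threshold width of hypergraph properties)
-/

namespace P063

/-- The set `E_{n,r}` of `r`-element subsets of the vertex set `Fin n`. -/
abbrev Edge (n r : ℕ) : Type := {s : Finset (Fin n) // s.card = r}

/-- A point of `{0,1}^{E_{n,r}}`, i.e. a simple `r`-uniform hypergraph on `Fin n`
(`x e = true` means that the edge `e` is present). -/
abbrev Hyper (n r : ℕ) : Type := Edge n r → Bool

/-- The image of an edge under a permutation of the vertices. -/
def mapEdge {n r : ℕ} (π : Equiv.Perm (Fin n)) (e : Edge n r) : Edge n r :=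
  ⟨e.1.map π.toEmbedding, by rw [Finset.card_map]; exact e.2⟩

/-- An `r`-uniform hypergraph property: a family of hypergraphs which is invariant under all
permutations of the vertices. -/
def IsProperty {n r : ℕ} (P : Set (Hyper n r)) : Prop :=
  ∀ (π : Equiv.Perm (Fin n)) (x : Hyper n r), (fun e => x (mapEdge π e)) ∈ P ↔ x ∈ P

open Classical in
/-- `μ_p(P)`: the probability that the random hypergraph, with each edge present independently
with probability `p`, lies in `P`. -/
noncomputable def mu {n r : ℕ} (p : ℝ) (P : Set (Hyper n r)) : ℝ :=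
  ∑ x : Hyper n r, if x ∈ P then ∏ e : Edge n r, (if x e then p else 1 - p) else 0

/-- `p_a(P) = inf {p ∈ [0,1] : μ_p(P) ≥ a}`. -/
noncomputable def crit {n r : ℕ} (a : ℝ) (P : Set (Hyper n r)) : ℝ :=
  sInf {p : ℝ | 0 ≤ p ∧ p ≤ 1 ∧ a ≤ mu p P}

/-- The threshold width `w_ε(P) = p_{1-ε}(P) - p_ε(P)`. -/
noncomputable def width {n r : ℕ} (ε : ℝ) (P : Set (Hyper n r)) : ℝ :=
  crit (1 - ε) P - crit ε P

end P063
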