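import Vale.Agent.P063.Comb

/-!
# P063: averaging over vertex classes and the influence inequality
-/

namespace P063

open Finset

set_option linter.unusedSectionVars false
set_option linter.unusedVariables false

variable {n r : ℕ} {p : ℝ}

lemma inter_touch_mem_fam (S : Finset (Edge n r)) (u : Fin n) (hu : u ∈ verts S) (d : ℕ)
    (hd : deg S u ≤ d) (k i : ℕ) (hi : i ∉ (verts S).image (fun v => v.val % k) ∨
      (∀ v ∈ verts S, v ≠ u → v.val % k ≠ i)) :
    S ∩ touch r (insert u (cls n k i)) ∈ fam (only r (insert u (cls n k i)) u) d := by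
  have hi' : ∀ v ∈ verts S, v ≠ u → v.val % k ≠ i := by
    rcases hi with h | h
    · intro v hv _ h'
      exact h (mem_image.2 ⟨v, hv, h'⟩)
    · exact h
  have hkey : ∀ e ∈ S, ∀ v ∈ e.1, v ∈ insert u (cls n k i) → v = u := by
    intro e he v hv hvU
    by_contra hne
    rw [mem_insert] at hvU
    rcases hvU with h | h
    · exact hne h
    · unfold cls at h
      rw [mem_filter] at h
      exact hi' v (mem_verts.2 ⟨e, he, hv⟩) hne h.2
  have hS : S ∩ touch r (insert u (cls n k i)) = S.filter (fun e => u ∈ e.1) := by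
    ext e
    rw [mem_inter, mem_filter]
    unfold touch
    rw [mem_filter]
    constructor
    · rintro ⟨he, _, hd⟩
      refine ⟨he, ?_⟩
      rw [not_disjoint_iff] at hd
      obtain ⟨v, hv, hvU⟩ := hd
      rw [← hkey e he v hv hvU]
      exact hv
    · rintro ⟨he, hue⟩
      refine ⟨he, mem_univ _, ?_⟩
      rw [not_disjoint_iff]
      exact ⟨u, hue, mem_insert_self _ _⟩
  rw [hS, mem_fam]
  refine ⟨?_, deg_pos hu, hd⟩
  intro e he
  rw [mem_filter] at he
  unfold only
  rw [mem_filter]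
  refine ⟨mem_univ _, ?_⟩
  ext v
  rw [mem_inter, mem_singleton]
  constructor
  · rintro ⟨h1, h2⟩
    exact hkey e he.1 v h1 h2
  · rintro rfl
    exact ⟨he.2, mem_insert_self _ _⟩

/-- The hypothesis supplied by the 4-norm inequality. -/
def Bon (ι : Type) [Fintype ι] [DecidableEq ι] (p : ℝ) : Prop :=
  ∀ (d : ℕ) (𝒜 : Finset (Finset ι)), (∀ A ∈ 𝒜, A.card ≤ d) →
      ∀ c : Finset ι → ℝ, ex p (fun x => (∑ A ∈ 𝒜, c A * chi p A x) ^ 4) ≤
        (4 / (p * (1 - p))) ^ d * (∑ A ∈ 𝒜, c A ^ 2) ^ 2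

theorem vertex_ineq (bon : Bon (Edge n r) p)
    (hp0 : 0 < p) (hp1 : p < 1) (f : Hyper n r → ℝ) (hf : ∀ x, f x = 0 ∨ f x = 1)
    (hinv : ∀ (π : Equiv.Perm (Fin n)) (x : Hyper n r), f (x ∘ edgePerm π) = f x)
    (k d : ℕ) (hk : 1 ≤ k) (lam : ℝ) (hlam : 0 < lam)
    (hm : 2 * (4 / (p * (1 - p))) ^ d ≤ lam ^ 3 * ((n / k : ℕ) : ℝ)) (u : Fin n) :
    ∑ S : Finset (Edge n r) with (u ∈ verts S ∧ deg S u ≤ d ∧ 2 * (verts S).card ≤ k),
      fc p f S ^ 2 ≤
      8 * lam * ∑ S : Finset (Edge n r) with ¬ Disjoint S (star u), fc p f S ^ 2 := by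
  set τ : ℝ := ∑ S : Finset (Edge n r) with ¬ Disjoint S (star u), fc p f S ^ 2 with hτ
  set U : ℕ → Finset (Fin n) := fun i => insert u (cls n k i) with hU
  -- key inequality for each class
  have h1 : ∀ i ∈ range k, ∑ S : Finset (Edge n r) with S ∩ touch r (U i) ∈ fam (only r (U i) u) d,
      fc p f S ^ 2 ≤ 4 * lam * τ := by
    intro i hi
    rw [mem_range] at hi
    have hcard : ((n / k : ℕ) : ℝ) ≤ ((U i).card : ℝ) := by
      have := (card_cls n k i hi).trans (card_le_card (subset_insert u (cls n k i)))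
      exact_mod_cast this
    refine key bon hp0 hp1 (U i) (touch r (U i)) (only r (U i)) f hf ?_ ?_ d u
      (mem_insert_self _ _) (only_subset_touch _ _) (star u) (only_subset_star _ _) lam hlam ?_
    · intro v hv w hw hvw
      rw [disjoint_left]
      intro e he he'
      unfold only at he he'
      rw [mem_filter] at he he'
      exact hvw (singleton_injective (he.2.symm.trans he'.2))
    · intro v hv w hw
      exact sym_exists f hinv (U i) v hv w hw
    · refine hm.trans ?_
      exact mul_le_mul_of_nonneg_left hcard (by positivity)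
  have h2 := sum_le_sum h1
  rw [sum_const, card_range, nsmul_eq_mul] at h2
  -- swap the sums
  have h3 : ∑ i ∈ range k, ∑ S : Finset (Edge n r) with
      S ∩ touch r (U i) ∈ fam (only r (U i) u) d, fc p f S ^ 2 =
      ∑ S : Finset (Edge n r), (((range k).filter
        (fun i => S ∩ touch r (U i) ∈ fam (only r (U i) u) d)).card : ℝ) * fc p f S ^ 2 := by
    simp_rw [sum_filter]
    rw [sum_comm]
    refine sum_congr rfl fun S _ => ?_
    rw [← sum_filter, sum_const, nsmul_eq_mul]
  rw [h3] at h2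
  have h4 : ∑ S : Finset (Edge n r) with (u ∈ verts S ∧ deg S u ≤ d ∧ 2 * (verts S).card ≤ k),
      ((k : ℝ) / 2) * fc p f S ^ 2 ≤ ∑ S : Finset (Edge n r), (((range k).filter
        (fun i => S ∩ touch r (U i) ∈ fam (only r (U i) u) d)).card : ℝ) * fc p f S ^ 2 := by
    refine le_trans (sum_le_sum fun S hS => ?_)
      (sum_le_sum_of_subset_of_nonneg (filter_subset _ _)
        (fun _ _ _ => mul_nonneg (Nat.cast_nonneg _) (sq_nonneg _)))
    rw [mem_filter] at hS
    obtain ⟨_, hu, hd, hv⟩ := hS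
    refine mul_le_mul_of_nonneg_right ?_ (sq_nonneg _)
    have h5 : (range k) \ ((verts S).image (fun v => v.val % k)) ⊆ (range k).filter
        (fun i => S ∩ touch r (U i) ∈ fam (only r (U i) u) d) := by
      intro i hi
      rw [mem_sdiff] at hi
      rw [mem_filter]
      exact ⟨hi.1, inter_touch_mem_fam S u hu d hd k i (Or.inl hi.2)⟩
    have h6 := card_le_card h5
    have h7 : ((verts S).image (fun v => v.val % k)).card ≤ (verts S).card := card_image_le
    have h8 := le_card_sdiff ((verts S).image (fun v => v.val % k)) (range k)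
    rw [card_range] at h8
    have h9 : k ≤ 2 * ((range k).filter
        (fun i => S ∩ touch r (U i) ∈ fam (only r (U i) u) d)).card := by omega
    have h10 : (k : ℝ) ≤ 2 * (((range k).filter
        (fun i => S ∩ touch r (U i) ∈ fam (only r (U i) u) d)).card : ℝ) := by exact_mod_cast h9
    linarith
  rw [← mul_sum] at h4
  have hk' : (0 : ℝ) < k := by exact_mod_cast hk
  have h5 := h4.trans h2
  have h6 : ((k : ℝ) / 2) * ∑ S : Finset (Edge n r) with
      (u ∈ verts S ∧ deg S u ≤ d ∧ 2 * (verts S).card ≤ k), fc p f S ^ 2 ≤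
      ((k : ℝ) / 2) * (8 * lam * τ) := by
    refine h5.trans (le_of_eq ?_)
    ring
  exact le_of_mul_le_mul_left h6 (by positivity)

/-- **The influence inequality.** -/
theorem influence_ineq (hr : 2 ≤ r) (bon : Bon (Edge n r) p)
    (hp0 : 0 < p) (hp1 : p < 1) (f : Hyper n r → ℝ) (hf : ∀ x, f x = 0 ∨ f x = 1)
    (hinv : ∀ (π : Equiv.Perm (Fin n)) (x : Hyper n r), f (x ∘ edgePerm π) = f x)
    (k d : ℕ) (hk : 1 ≤ k) (lam : ℝ) (hlam : 0 < lam)
    (hm : 2 * (4 / (p * (1 - p))) ^ d ≤ lam ^ 3 * ((n / k : ℕ) : ℝ)) :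
    ex p f * (1 - ex p f) ≤ tinf p f * (2 * r / k + 8 * r * lam +
      r / ((d : ℝ) + 1) ^ ((r : ℝ) / ((r : ℝ) - 1))) := by
  have hk' : (0 : ℝ) < k := by exact_mod_cast hk
  have hr0 : (0 : ℝ) < r := by
    have : 0 < r := by omega
    exact_mod_cast this
  set M : ℝ := ((d : ℝ) + 1) ^ ((r : ℝ) / ((r : ℝ) - 1)) with hM
  have hMpos : 0 < M := by positivity
  -- variance
  have hvar : ex p f * (1 - ex p f) = ∑ S ∈ (univ : Finset (Finset (Edge n r))).erase ∅,
      fc p f S ^ 2 := by
    have h1 := parseval_sq hp0 hp1 f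
    rw [← add_sum_erase univ _ (mem_univ ∅), fc_empty] at h1
    have h2 : ex p (fun x => f x ^ 2) = ex p f := by
      congr 1
      ext x
      rcases hf x with h | h <;> rw [h] <;> norm_num
    rw [h2] at h1
    linarith
  rw [hvar]
  -- the pointwise bound
  have hpt : ∀ S ∈ (univ : Finset (Finset (Edge n r))).erase ∅, fc p f S ^ 2 ≤
      (2 * r / k) * ((S.card : ℝ) * fc p f S ^ 2) +
      (∑ u : Fin n, if (u ∈ verts S ∧ deg S u ≤ d ∧ 2 * (verts S).card ≤ k) then
        fc p f S ^ 2 else 0) + (r / M) * ((S.card : ℝ) * fc p f S ^ 2) := by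
    intro S hS
    have hne : S.Nonempty := nonempty_iff_ne_empty.2 (ne_of_mem_erase hS)
    have hc0 : 0 ≤ fc p f S ^ 2 := sq_nonneg _
    have t1 : 0 ≤ (2 * r / k) * ((S.card : ℝ) * fc p f S ^ 2) := by positivity
    have t3 : 0 ≤ (r / M) * ((S.card : ℝ) * fc p f S ^ 2) := by positivity
    have t2 : 0 ≤ ∑ u : Fin n, if (u ∈ verts S ∧ deg S u ≤ d ∧ 2 * (verts S).card ≤ k) then
        fc p f S ^ 2 else 0 := sum_nonneg fun u _ => by split_ifs <;> simp [hc0]
    by_cases hbig : k < 2 * (verts S).card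
    · have h1 : (k : ℝ) ≤ 2 * (r * S.card) := by
        have := hbig.le.trans (Nat.mul_le_mul_left 2 (card_verts_le S))
        exact_mod_cast this
      have h2 : 1 ≤ (2 * r / k) * (S.card : ℝ) := by
        rw [div_mul_eq_mul_div, le_div_iff₀ hk']
        linarith
      have : fc p f S ^ 2 ≤ (2 * r / k) * ((S.card : ℝ) * fc p f S ^ 2) := by
        rw [← mul_assoc]
        exact le_mul_of_one_le_left hc0 h2
      linarith
    · by_cases hlow : ∃ u ∈ verts S, deg S u ≤ d
      · obtain ⟨u, hu, hd⟩ := hlow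
        have : fc p f S ^ 2 ≤ ∑ u : Fin n, if (u ∈ verts S ∧ deg S u ≤ d ∧
            2 * (verts S).card ≤ k) then fc p f S ^ 2 else 0 := by
          have h1 := single_le_sum (s := (univ : Finset (Fin n)))
            (f := fun u => if (u ∈ verts S ∧ deg S u ≤ d ∧ 2 * (verts S).card ≤ k) then
              fc p f S ^ 2 else 0) (fun u _ => by split_ifs <;> simp [hc0])
            (mem_univ u)
          rwa [if_pos ⟨hu, hd, not_lt.1 hbig⟩] at h1
        linarith
      · push Not at hlow
        have h1 := card_ge hr S hne d (fun u hu => hlow u hu)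
        have h2 : 1 ≤ (r / M) * (S.card : ℝ) := by
          rw [div_mul_eq_mul_div, le_div_iff₀ hMpos, one_mul]
          exact h1
        have : fc p f S ^ 2 ≤ (r / M) * ((S.card : ℝ) * fc p f S ^ 2) := by
          rw [← mul_assoc]
          exact le_mul_of_one_le_left hc0 h2
        linarith
  have h1 := sum_le_sum hpt
  refine h1.trans ?_
  rw [sum_add_distrib, sum_add_distrib, ← mul_sum, ← mul_sum]
  have hI : ∑ S ∈ (univ : Finset (Finset (Edge n r))).erase ∅, (S.card : ℝ) * fc p f S ^ 2 ≤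
      tinf p f := by
    unfold tinf
    exact sum_le_sum_of_subset_of_nonneg (erase_subset _ _)
      (fun _ _ _ => mul_nonneg (Nat.cast_nonneg _) (sq_nonneg _))
  have hmid : ∑ S ∈ (univ : Finset (Finset (Edge n r))).erase ∅, (∑ u : Fin n,
      if (u ∈ verts S ∧ deg S u ≤ d ∧ 2 * (verts S).card ≤ k) then fc p f S ^ 2 else 0) ≤
      8 * lam * (r * tinf p f) := by
    have e1 : ∑ S ∈ (univ : Finset (Finset (Edge n r))).erase ∅, (∑ u : Fin n,
      if (u ∈ verts S ∧ deg S u ≤ d ∧ 2 * (verts S).card ≤ k) then fc p f S ^ 2 else 0) ≤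
      ∑ S : Finset (Edge n r), (∑ u : Fin n,
      if (u ∈ verts S ∧ deg S u ≤ d ∧ 2 * (verts S).card ≤ k) then fc p f S ^ 2 else 0) :=
      sum_le_sum_of_subset_of_nonneg (erase_subset _ _)
        (fun _ _ _ => sum_nonneg fun _ _ => by split_ifs <;> positivity)
    refine e1.trans ?_
    rw [sum_comm]
    have e2 : ∀ u ∈ (univ : Finset (Fin n)), (∑ S : Finset (Edge n r),
        if (u ∈ verts S ∧ deg S u ≤ d ∧ 2 * (verts S).card ≤ k) then fc p f S ^ 2 else 0) ≤
        8 * lam * ∑ S : Finset (Edge n r) with ¬ Disjoint S (star u), fc p f S ^ 2 := by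
      intro u _
      rw [← sum_filter]
      exact vertex_ineq bon hp0 hp1 f hf hinv k d hk lam hlam hm u
    refine (sum_le_sum e2).trans ?_
    rw [← mul_sum]
    refine mul_le_mul_of_nonneg_left ?_ (by positivity)
    simp_rw [sum_filter]
    rw [sum_comm]
    unfold tinf
    rw [mul_sum]
    refine sum_le_sum fun S _ => ?_
    rw [← sum_filter, sum_const, nsmul_eq_mul, ← mul_assoc]
    refine mul_le_mul_of_nonneg_right ?_ (sq_nonneg _)
    have e3 : univ.filter (fun u : Fin n => ¬ Disjoint S (star u)) = verts S := by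
      ext u
      rw [mem_filter, not_disjoint_iff, mem_verts]
      simp only [mem_univ, true_and]
      constructor
      · rintro ⟨e, he, he'⟩
        exact ⟨e, he, (mem_filter.1 he').2⟩
      · rintro ⟨e, he, hu⟩
        exact ⟨e, he, mem_filter.2 ⟨mem_univ _, hu⟩⟩
    rw [e3]
    have := card_verts_le S
    exact_mod_cast this
  have e1 : (2 * r / k : ℝ) * ∑ S ∈ (univ : Finset (Finset (Edge n r))).erase ∅,
      (S.card : ℝ) * fc p f S ^ 2 ≤ (2 * r / k) * tinf p f :=
    mul_le_mul_of_nonneg_left hI (by positivity)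
  have e2 : (r / M) * ∑ S ∈ (univ : Finset (Finset (Edge n r))).erase ∅,
      (S.card : ℝ) * fc p f S ^ 2 ≤ (r / M) * tinf p f :=
    mul_le_mul_of_nonneg_left hI (by positivity)
  have e3 : tinf p f * (2 * r / k + 8 * r * lam + r / M) =
      (2 * r / k) * tinf p f + 8 * lam * (r * tinf p f) + (r / M) * tinf p f := by ring
  rw [e3]
  linarith

end P063
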